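import Mathlib

/-!
Exact finite (Walsh) model of the dyadic triangular Hilbert form of problem P075.

Identify a point of `[0,1)` with its first `N` binary digits, digit `0` being the most
significant one.  A function on `[0,1)^2` that is constant on dyadic squares of side `2^(-N)`
is then a function on `G N × G N`, where `G N = (Z/2)^N`.  For a dyadic interval `I` of
length `2^(-j)` inside `[0,1)` (`0 ≤ j < N`) the points of `I` are the strings with prescribed
first `j` digits, and the Haar function of `I` is `+1` or `-1` according to digit `j`.  The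
condition that the indices of `I_0, I_1, I_2` have bitwise XOR zero says that the first `j`
digits of `x_0 + x_1 + x_2` vanish, and the product of the three Haar functions is the sign
given by digit `j` of `x_0 + x_1 + x_2`.  Hence the sum of `L_I` over the admissible triples
of scale `2^(-j)` equals `piece N j F0 F1 F2` below, and the form with coefficients `ε` is
`form N ε F0 F1 F2`.
-/

namespace Vale.Agent.Helper20.P075

open Finset

/-- Binary strings of length `N`, with digitwise addition modulo two. -/
abbrev G (N : ℕ) : Type := Fin N → ZMod 2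

/-- The first `j` digits of `t` vanish. -/
def Lead (N j : ℕ) (t : G N) : Prop := ∀ i : Fin N, (i : ℕ) < j → t i = 0

/-- The sign `+1` or `-1` given by digit `j` of `t`. -/
def sgn (N : ℕ) (j : Fin N) (t : G N) : ℝ := if t j = 0 then 1 else -1

open Classical in
/-- The kernel of scale `j`: `2^j` times the sign of digit `j`, on strings whose first `j`
digits vanish, and zero elsewhere. -/
noncomputable def ker (N : ℕ) (j : Fin N) (t : G N) : ℝ :=
  if Lead N j t then (2 : ℝ) ^ (j : ℕ) * sgn N j t else 0

/-- The scale `j` part of the dyadic triangular form: the normalised sum over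
`x0, x1, x2` of `ker j (x0 + x1 + x2) * F0 (x0, x1) * F1 (x1, x2) * F2 (x2, x0)`. -/
noncomputable def piece (N : ℕ) (j : Fin N) (F0 F1 F2 : G N → G N → ℝ) : ℝ :=
  (∑ x0 : G N, ∑ x1 : G N, ∑ x2 : G N,
      ker N j (x0 + x1 + x2) * (F0 x0 x1 * F1 x1 x2 * F2 x2 x0)) / (2 : ℝ) ^ (3 * N)

/-- The dyadic triangular form with coefficients `ε` on the scales `0, ..., N - 1`. -/
noncomputable def form (N : ℕ) (ε : Fin N → ℝ) (F0 F1 F2 : G N → G N → ℝ) : ℝ :=
  ∑ j : Fin N, ε j * piece N j F0 F1 F2

/-- The `L^3` norm on `G N × G N` with normalised counting measure (Lebesgue measure of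
`[0,1)^2`). -/
noncomputable def norm3 (N : ℕ) (F : G N → G N → ℝ) : ℝ :=
  ((∑ x : G N, ∑ y : G N, |F x y| ^ 3) / (2 : ℝ) ^ (2 * N)) ^ ((1 : ℝ) / 3)

/-- Tensor product over consecutive pairs of digits: the string `x` of length `2k` is cut
into the `k` pairs `(x (2i), x (2i+1))` and `pairTensor k f x y` is the product over `i` of
`f i` evaluated at the `i`-th pairs of `x` and `y`. -/
noncomputable def pairTensor (k : ℕ)
    (f : Fin k → (Fin 2 → ZMod 2) → (Fin 2 → ZMod 2) → ℝ) : G (k * 2) → G (k * 2) → ℝ :=
  fun x y => ∏ i : Fin k,
    f i (fun b => x (finProdFinEquiv (i, b))) (fun b => y (finProdFinEquiv (i, b)))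

end Vale.Agent.Helper20.P075
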