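import Mathlib
import Vale.Agent.Helper20.P075Model

namespace Vale.Agent.Helper20.P075

open Finset

/-- The two-digit weight `(-1)^(b + a b)`. -/
def w2 (a b : ZMod 2) : ℤ := if b = 1 ∧ a = 0 then -1 else 1

/-- The two-digit gadget `(-1)^(q(x) + x_a y_b + x_b y_a)` with `q (a, b) = b + a b`. -/
def gadZ (a b c d : ZMod 2) : ℤ := w2 a b * (if a * d + b * c = 0 then 1 else -1)

theorem gadZ_tri : ∀ a b c d e f : ZMod 2,
    gadZ a b c d * gadZ c d e f * gadZ e f a b = w2 (a + c + e) (b + d + f) := by decide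

theorem gadZ_abs : ∀ a b c d : ZMod 2, |gadZ a b c d| = 1 := by decide

/-- The gadget as a real function of two digit pairs. -/
def gad (u v : Fin 2 → ZMod 2) : ℝ := ((gadZ (u 0) (u 1) (v 0) (v 1) : ℤ) : ℝ)

/-- The tower function: the `k`-fold pair tensor power of the gadget. -/
noncomputable def tower (k : ℕ) : G (k * 2) → G (k * 2) → ℝ := pairTensor k (fun _ => gad)

/-- The quadratic phase carried by the tower. -/
noncomputable def phase (k : ℕ) (t : G (k * 2)) : ℝ :=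
  ∏ i : Fin k, ((w2 (t (finProdFinEquiv (i, 0))) (t (finProdFinEquiv (i, 1))) : ℤ) : ℝ)

theorem tower_abs (k : ℕ) (x y : G (k * 2)) : |tower k x y| = 1 := by
  unfold tower pairTensor
  rw [Finset.abs_prod]
  apply Finset.prod_eq_one
  intro i _
  unfold gad
  have h := gadZ_abs (x (finProdFinEquiv (i, 0))) (x (finProdFinEquiv (i, 1)))
    (y (finProdFinEquiv (i, 0))) (y (finProdFinEquiv (i, 1)))
  beta_reduce
  exact_mod_cast h

theorem tower_tri (k : ℕ) (x y z : G (k * 2)) :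
    tower k x y * tower k y z * tower k z x = phase k (x + y + z) := by
  unfold tower pairTensor phase
  rw [← Finset.prod_mul_distrib, ← Finset.prod_mul_distrib]
  apply Finset.prod_congr rfl
  intro i _
  unfold gad
  have h := gadZ_tri (x (finProdFinEquiv (i, 0))) (x (finProdFinEquiv (i, 1)))
    (y (finProdFinEquiv (i, 0))) (y (finProdFinEquiv (i, 1)))
    (z (finProdFinEquiv (i, 0))) (z (finProdFinEquiv (i, 1)))
  beta_reduce
  simp only [Pi.add_apply]
  exact_mod_cast h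

theorem card_G (N : ℕ) : (Fintype.card (G N) : ℝ) = (2 : ℝ) ^ N := by
  simp [G, Fintype.card_pi, ZMod.card]

/-- For a triple whose triangle product is a function of `x0 + x1 + x2`, the scale `j` part
is a single sum over the group. -/
theorem piece_of_tri (N : ℕ) (j : Fin N) (F0 F1 F2 : G N → G N → ℝ) (φ : G N → ℝ)
    (h : ∀ x y z, F0 x y * F1 y z * F2 z x = φ (x + y + z)) :
    piece N j F0 F1 F2 = (∑ t : G N, ker N j t * φ t) / (2 : ℝ) ^ N := by
  unfold piece
  have h1 : ∀ x0 x1 : G N, (∑ x2 : G N, ker N j (x0 + x1 + x2) * (F0 x0 x1 * F1 x1 x2 * F2 x2 x0))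
      = ∑ t : G N, ker N j t * φ t := by
    intro x0 x1
    rw [← Equiv.sum_comp (Equiv.addLeft (x0 + x1)) (fun t => ker N j t * φ t)]
    apply Finset.sum_congr rfl
    intro x2 _
    simp only [Equiv.coe_addLeft]
    rw [h x0 x1 x2]
  simp only [h1, Finset.sum_const, Finset.card_univ, nsmul_eq_mul, card_G]
  have h2 : (2 : ℝ) ^ (3 * N) = (2 : ℝ) ^ N * (2 : ℝ) ^ N * (2 : ℝ) ^ N := by ring
  rw [h2]
  have h3 : (2 : ℝ) ^ N ≠ 0 := by positivity
  field_simp

/-- Reindexing of strings of length `2k` by pairs of digits. -/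
def pairEquiv (k : ℕ) : G (k * 2) ≃ (Fin k → Fin 2 → ZMod 2) :=
  (Equiv.arrowCongr finProdFinEquiv.symm (Equiv.refl _)).trans (Equiv.curry _ _ _)

theorem sum_prod_pairs (k : ℕ) (g : Fin k → (Fin 2 → ZMod 2) → ℝ) :
    ∑ t : G (k * 2), ∏ i : Fin k, g i (fun b => t (finProdFinEquiv (i, b)))
      = ∏ i : Fin k, ∑ v : Fin 2 → ZMod 2, g i v := by
  rw [Fintype.prod_sum]
  exact Equiv.sum_comp (pairEquiv k) (fun u => ∏ i, g i (u i))

theorem fin2_cases (b : Fin 2) : b = 0 ∨ b = 1 := by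
  fin_cases b <;> simp

theorem lead_iff (k : ℕ) (i : Fin k) (b : Fin 2) (t : G (k * 2)) :
    Lead (k * 2) ((finProdFinEquiv (i, b) : Fin (k * 2)) : ℕ) t ↔
      ∀ i' : Fin k, (i' < i → t (finProdFinEquiv (i', 0)) = 0 ∧ t (finProdFinEquiv (i', 1)) = 0)
        ∧ (i' = i → b = 1 → t (finProdFinEquiv (i', 0)) = 0) := by
  constructor
  · intro h i'
    refine ⟨fun hlt => ⟨h _ ?_, h _ ?_⟩, fun he hb => h _ ?_⟩
    · have h1 := Fin.lt_def.mp hlt
      simp only [finProdFinEquiv_apply_val, Fin.val_zero]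
      omega
    · have h1 := Fin.lt_def.mp hlt
      have h2 := b.isLt
      simp only [finProdFinEquiv_apply_val, Fin.val_one]
      omega
    · subst he
      subst hb
      simp only [finProdFinEquiv_apply_val, Fin.val_zero, Fin.val_one]
      omega
  · intro h i'' hlt
    obtain ⟨⟨i', b'⟩, rfl⟩ := finProdFinEquiv.surjective i''
    simp only [finProdFinEquiv_apply_val] at hlt
    have hb2 := b.isLt
    have hb2' := b'.isLt
    rcases lt_or_ge i' i with hlt' | hge
    · rcases fin2_cases b' with rfl | rfl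
      · exact ((h i').1 hlt').1
      · exact ((h i').1 hlt').2
    · have hge' := Fin.le_def.mp hge
      have hie : i' = i := by
        apply Fin.ext
        omega
      subst hie
      have hb0 : b' = 0 := by
        apply Fin.ext
        simp only [Fin.val_zero]
        omega
      have hb1 : b = 1 := by
        apply Fin.ext
        simp only [Fin.val_one]
        omega
      subst hb0
      exact (h i').2 rfl hb1

/-- The factor of block `i'` in the summand of scale `(i, b)`. -/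
def fac (k : ℕ) (i : Fin k) (b : Fin 2) (i' : Fin k) (v : Fin 2 → ZMod 2) : ℝ :=
  (if (i' < i → v 0 = 0 ∧ v 1 = 0) ∧ (i' = i → b = 1 → v 0 = 0) then (1 : ℝ) else 0) *
    ((if i' = i then (if v b = 0 then (1 : ℝ) else -1) else 1) * ((w2 (v 0) (v 1) : ℤ) : ℝ))

theorem ker_phase (k : ℕ) (i : Fin k) (b : Fin 2) (t : G (k * 2)) :
    ker (k * 2) (finProdFinEquiv (i, b)) t * phase k t =
      (2 : ℝ) ^ ((finProdFinEquiv (i, b) : Fin (k * 2)) : ℕ) *
        ∏ i' : Fin k, fac k i b i' (fun b' => t (finProdFinEquiv (i', b'))) := by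
  unfold fac
  rw [Finset.prod_mul_distrib, Finset.prod_mul_distrib, Finset.prod_boole, Finset.prod_ite_eq']
  unfold ker sgn phase
  have hL := lead_iff k i b t
  by_cases hc : Lead (k * 2) ((finProdFinEquiv (i, b) : Fin (k * 2)) : ℕ) t
  · have hc' := hL.mp hc
    rw [if_pos hc, if_pos (fun i' _ => hc' i'), if_pos (Finset.mem_univ i)]
    ring
  · have hc' : ¬ (∀ i' ∈ (Finset.univ : Finset (Fin k)),
        (i' < i → t (finProdFinEquiv (i', 0)) = 0 ∧ t (finProdFinEquiv (i', 1)) = 0)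
        ∧ (i' = i → b = 1 → t (finProdFinEquiv (i', 0)) = 0)) := by
      intro h
      exact hc (hL.mpr (fun i' => h i' (Finset.mem_univ i')))
    rw [if_neg hc, if_neg hc']
    ring

theorem z_lt : ∑ v : Fin 2 → ZMod 2, (if v 0 = 0 ∧ v 1 = 0 then (1:ℤ) else 0) * w2 (v 0) (v 1) = 1 := by decide
theorem z_eq0 : ∑ v : Fin 2 → ZMod 2, (if v 0 = 0 then (1:ℤ) else -1) * w2 (v 0) (v 1) = -2 := by decide
theorem z_eq1 : ∑ v : Fin 2 → ZMod 2, (if v 0 = 0 then (1:ℤ) else 0) * ((if v 1 = 0 then (1:ℤ) else -1) * w2 (v 0) (v 1)) = 2 := by decide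
theorem z_gt : ∑ v : Fin 2 → ZMod 2, w2 (v 0) (v 1) = 2 := by decide

theorem fac_sum_lt (k : ℕ) (i : Fin k) (b : Fin 2) (i' : Fin k) (h : i' < i) :
    ∑ v : Fin 2 → ZMod 2, fac k i b i' v = 1 := by
  have hne : i' ≠ i := ne_of_lt h
  have h1 : ∀ v : Fin 2 → ZMod 2, fac k i b i' v
      = (((if v 0 = 0 ∧ v 1 = 0 then (1:ℤ) else 0) * w2 (v 0) (v 1) : ℤ) : ℝ) := by
    intro v
    unfold fac
    simp only [h, hne, forall_const, IsEmpty.forall_iff, and_true, if_false, one_mul]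
    push_cast
    rfl
  simp only [h1]
  exact_mod_cast z_lt

theorem fac_sum_gt (k : ℕ) (i : Fin k) (b : Fin 2) (i' : Fin k) (h : i < i') :
    ∑ v : Fin 2 → ZMod 2, fac k i b i' v = 2 := by
  have hne : i' ≠ i := ne_of_gt h
  have hnl : ¬ i' < i := not_lt.mpr (le_of_lt h)
  have h1 : ∀ v : Fin 2 → ZMod 2, fac k i b i' v = ((w2 (v 0) (v 1) : ℤ) : ℝ) := by
    intro v
    unfold fac
    simp only [hnl, hne, IsEmpty.forall_iff, and_self, if_true, if_false, one_mul]
  simp only [h1]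
  exact_mod_cast z_gt

theorem fac_sum_eq0 (k : ℕ) (i : Fin k) :
    ∑ v : Fin 2 → ZMod 2, fac k i 0 i v = -2 := by
  have h1 : ∀ v : Fin 2 → ZMod 2, fac k i 0 i v
      = (((if v 0 = 0 then (1:ℤ) else -1) * w2 (v 0) (v 1) : ℤ) : ℝ) := by
    intro v
    unfold fac
    simp
  simp only [h1]
  exact_mod_cast z_eq0

theorem fac_sum_eq1 (k : ℕ) (i : Fin k) :
    ∑ v : Fin 2 → ZMod 2, fac k i 1 i v = 2 := by
  have h1 : ∀ v : Fin 2 → ZMod 2, fac k i 1 i v
      = (((if v 0 = 0 then (1:ℤ) else 0) * ((if v 1 = 0 then (1:ℤ) else -1) * w2 (v 0) (v 1)) : ℤ) : ℝ) := by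
    intro v
    unfold fac
    simp
  simp only [h1]
  exact_mod_cast z_eq1


theorem prod_gt (k : ℕ) (i : Fin k) :
    ∏ i' : Fin k, (if i < i' then (2 : ℝ) else 1) = (2 : ℝ) ^ (k - 1 - (i : ℕ)) := by
  rw [Finset.prod_ite, Finset.prod_const, Finset.prod_const_one, mul_one,
    Finset.filter_lt_eq_Ioi, Fin.card_Ioi]

/-- The product over the blocks of the block sums. -/
theorem prod_fac (k : ℕ) (i : Fin k) (b : Fin 2) (c : ℝ)
    (hc : ∑ v : Fin 2 → ZMod 2, fac k i b i v = c) :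
    ∏ i' : Fin k, ∑ v : Fin 2 → ZMod 2, fac k i b i' v = c * (2 : ℝ) ^ (k - 1 - (i : ℕ)) := by
  have h1 : ∀ i' : Fin k, ∑ v : Fin 2 → ZMod 2, fac k i b i' v
      = (if i' = i then c else 1) * (if i < i' then (2 : ℝ) else 1) := by
    intro i'
    rcases lt_trichotomy i' i with h | h | h
    · rw [fac_sum_lt k i b i' h, if_neg (ne_of_lt h), if_neg (not_lt.mpr (le_of_lt h))]
      ring
    · subst h
      rw [hc, if_pos rfl, if_neg (lt_irrefl _)]
      ring
    · rw [fac_sum_gt k i b i' h, if_neg (ne_of_gt h), if_pos h]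
      ring
  simp only [h1]
  rw [Finset.prod_mul_distrib, Finset.prod_ite_eq', if_pos (Finset.mem_univ i), prod_gt]

/-- The single sum over the group at scale `(i, b)`. -/
theorem scale_sum (k : ℕ) (i : Fin k) (b : Fin 2) (c : ℝ)
    (hc : ∑ v : Fin 2 → ZMod 2, fac k i b i v = c) :
    ∑ t : G (k * 2), ker (k * 2) (finProdFinEquiv (i, b)) t * phase k t
      = (2 : ℝ) ^ ((finProdFinEquiv (i, b) : Fin (k * 2)) : ℕ) * (c * (2 : ℝ) ^ (k - 1 - (i : ℕ))) := by
  simp only [ker_phase]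
  rw [← Finset.mul_sum, sum_prod_pairs, prod_fac k i b c hc]

theorem two_pow_split (k : ℕ) (i : Fin k) :
    (2 : ℝ) ^ (2 * (i : ℕ)) * (2 : ℝ) ^ (k - 1 - (i : ℕ)) * 2 = (2 : ℝ) ^ (i : ℕ) * (2 : ℝ) ^ k := by
  have h := i.isLt
  rw [← pow_add, ← pow_succ, ← pow_add]
  congr 1
  omega

theorem piece_zero (k : ℕ) (i : Fin k) :
    piece (k * 2) (finProdFinEquiv (i, 0)) (tower k) (tower k) (tower k)
      = -((2 : ℝ) ^ (i : ℕ) / (2 : ℝ) ^ k) := by
  rw [piece_of_tri (k * 2) _ (tower k) (tower k) (tower k) (phase k) (tower_tri k),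
    scale_sum k i 0 (-2) (fac_sum_eq0 k i)]
  have h1 : ((finProdFinEquiv (i, (0 : Fin 2)) : Fin (k * 2)) : ℕ) = 2 * (i : ℕ) := by
    simp [finProdFinEquiv_apply_val]
  have h2 := two_pow_split k i
  have h3 : (2 : ℝ) ^ (k * 2) = (2 : ℝ) ^ k * (2 : ℝ) ^ k := by ring
  have h4 : (2 : ℝ) ^ k ≠ 0 := by positivity
  rw [h1, h3]
  field_simp
  linarith

theorem piece_one (k : ℕ) (i : Fin k) :
    piece (k * 2) (finProdFinEquiv (i, 1)) (tower k) (tower k) (tower k)
      = 2 * ((2 : ℝ) ^ (i : ℕ) / (2 : ℝ) ^ k) := by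
  rw [piece_of_tri (k * 2) _ (tower k) (tower k) (tower k) (phase k) (tower_tri k),
    scale_sum k i 1 2 (fac_sum_eq1 k i)]
  have h1 : ((finProdFinEquiv (i, (1 : Fin 2)) : Fin (k * 2)) : ℕ) = 2 * (i : ℕ) + 1 := by
    simp [finProdFinEquiv_apply_val]
    omega
  have h2 := two_pow_split k i
  have h3 : (2 : ℝ) ^ (k * 2) = (2 : ℝ) ^ k * (2 : ℝ) ^ k := by ring
  have h4 : (2 : ℝ) ^ k ≠ 0 := by positivity
  rw [h1, h3, pow_succ]
  field_simp
  linarith

/-- The coefficients of the tower: `-1` on even scales and `+1` on odd scales. -/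
noncomputable def towerSign (k : ℕ) : Fin (k * 2) → ℝ :=
  fun j => if (finProdFinEquiv.symm j).2 = 0 then -1 else 1

theorem towerSign_abs (k : ℕ) (j : Fin (k * 2)) : |towerSign k j| = 1 := by
  unfold towerSign
  split_ifs <;> simp

theorem form_tower (k : ℕ) :
    form (k * 2) (towerSign k) (tower k) (tower k) (tower k) = 3 - 3 / (2 : ℝ) ^ k := by
  unfold form
  rw [← Equiv.sum_comp finProdFinEquiv, Fintype.sum_prod_type]
  simp only [Fin.sum_univ_two, piece_zero, piece_one, towerSign, Equiv.symm_apply_apply]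
  have h4 : (2 : ℝ) ^ k ≠ 0 := by positivity
  calc _ = ∑ i : Fin k, 3 / (2 : ℝ) ^ k * (2 : ℝ) ^ (i : ℕ) := by
        apply Finset.sum_congr rfl
        intro i _
        simp
        ring
    _ = 3 - 3 / (2 : ℝ) ^ k := by
        rw [← Finset.mul_sum, Fin.sum_univ_eq_sum_range (fun i => (2 : ℝ) ^ i) k,
          geom_sum_eq (by norm_num : (2 : ℝ) ≠ 1) k]
        field_simp
        ring

theorem norm3_of_abs_one (N : ℕ) (F : G N → G N → ℝ) (h : ∀ x y, |F x y| = 1) :
    norm3 N F = 1 := by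
  unfold norm3
  simp only [h, one_pow, Finset.sum_const, Finset.card_univ, nsmul_eq_mul, mul_one, card_G]
  have h2 : (2 : ℝ) ^ (2 * N) = (2 : ℝ) ^ N * (2 : ℝ) ^ N := by ring
  have h3 : (2 : ℝ) ^ N ≠ 0 := by positivity
  rw [h2, div_self (mul_ne_zero h3 h3), Real.one_rpow]

/-- Any constant in the `L^3` bound of the finite dyadic triangular form is at least `3`. -/
theorem const_ge_three (C : ℝ)
    (hC : ∀ (N : ℕ) (ε : Fin N → ℝ) (F0 F1 F2 : G N → G N → ℝ), (∀ j, |ε j| ≤ 1) →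
      |form N ε F0 F1 F2| ≤ C * (norm3 N F0 * norm3 N F1 * norm3 N F2)) : 3 ≤ C := by
  by_contra hlt0
  have hlt : C < 3 := not_le.mp hlt0
  have hpos : 0 < 3 - C := by linarith
  obtain ⟨k, hk⟩ := pow_unbounded_of_one_lt (3 / (3 - C)) (by norm_num : (1 : ℝ) < 2)
  have h1 := hC (k * 2) (towerSign k) (tower k) (tower k) (tower k)
    (fun j => le_of_eq (towerSign_abs k j))
  rw [norm3_of_abs_one (k * 2) (tower k) (tower_abs k), form_tower] at h1
  have h2 : (0 : ℝ) < (2 : ℝ) ^ k := by positivity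
  have h3 : 3 / (2 : ℝ) ^ k < 3 - C := by
    rw [div_lt_iff₀ h2]
    rw [div_lt_iff₀ hpos] at hk
    linarith
  have h4 := le_abs_self (3 - 3 / (2 : ℝ) ^ k)
  linarith

end Vale.Agent.Helper20.P075
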