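import Mathlib

/-!
Helper file for P037 (identity pattern): the deterministic core construction.
Rows of a binary matrix are rounded to top segments of linear orders on the columns
built from a family of sample rows.
-/

namespace Vale.Agent.Helper20.P037

open Finset

variable {n : ℕ}

/-- A binary matrix has no ordered copy of the `2 × 2` identity pattern. -/
def IFree (B : Fin n → Fin n → Bool) : Prop :=
  ∀ r1 r2 c1 c2 : Fin n, r1 < r2 → c1 < c2 →
    ¬ (B r1 c1 = true ∧ B r1 c2 = false ∧ B r2 c1 = false ∧ B r2 c2 = true)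

/-- The number of entries in which two matrices differ. -/
def diff (A B : Fin n → Fin n → Bool) : ℕ :=
  (univ.filter fun p : Fin n × Fin n => A p.1 p.2 ≠ B p.1 p.2).card

/-- Inversions of the ordered row pair `(q, r)`: column pairs `c1 < c2` with `c1` in row `q`
only and `c2` in row `r` only. -/
def invSet (A : Fin n → Fin n → Bool) (q r : Fin n) : Finset (Fin n × Fin n) :=
  univ.filter fun p : Fin n × Fin n =>
    p.1 < p.2 ∧ A q p.1 = true ∧ A r p.1 = false ∧ A r p.2 = true ∧ A q p.2 = false

section Core

variable (A : Fin n → Fin n → Bool) {s : ℕ} (f : Fin s → Fin n) (Z : Finset (Fin n))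

/-- Virtual membership: the entry is one and the column is not blanked. -/
def V (q c : Fin n) : Prop := A q c = true ∧ c ∉ Z

/-- The (virtual) sample rows are pairwise compatible in their order. -/
def Compat : Prop := ∀ j j' : Fin s, f j < f j' → ∀ c1 c2 : Fin n, c1 < c2 →
  ¬ (V A Z (f j) c1 ∧ ¬ V A Z (f j') c1 ∧ V A Z (f j') c2 ∧ ¬ V A Z (f j) c2)

/-- The pair `(a, b)` has been inverted by a sample row at or before `r`. -/
def invr (r a b : Fin n) : Prop := ∃ j, f j ≤ r ∧ V A Z (f j) a ∧ ¬ V A Z (f j) b

/-- The order on columns at row-time `r`. -/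
def above (r a b : Fin n) : Prop :=
  (a < b ∧ invr A f Z r a b) ∨ (b < a ∧ ¬ invr A f Z r b a)

variable {A f Z}

theorem no_alt (hc : Compat A f Z) (j k : Fin s) (x y z : Fin n) (hxy : x < y) (hyz : y < z) :
    ¬ (V A Z (f j) x ∧ ¬ V A Z (f j) y ∧ V A Z (f j) z ∧
        ¬ V A Z (f k) x ∧ V A Z (f k) y ∧ ¬ V A Z (f k) z) := by
  rintro ⟨h1, h2, h3, h4, h5, h6⟩
  rcases lt_trichotomy (f j) (f k) with h | h | h
  · exact hc j k h x y hxy ⟨h1, h4, h5, h2⟩
  · rw [h] at h2; exact h2 h5
  · exact hc k j h y z hyz ⟨h5, h2, h3, h6⟩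

theorem above_irrefl (r a : Fin n) : ¬ above A f Z r a a := by
  rintro (⟨h, _⟩ | ⟨h, _⟩) <;> exact lt_irrefl _ h

theorem above_total (r : Fin n) {a b : Fin n} (hab : a ≠ b) :
    above A f Z r a b ∨ above A f Z r b a := by
  rcases lt_or_gt_of_ne hab with h | h
  · by_cases hi : invr A f Z r a b
    · exact Or.inl (Or.inl ⟨h, hi⟩)
    · exact Or.inr (Or.inr ⟨h, hi⟩)
  · by_cases hi : invr A f Z r b a
    · exact Or.inr (Or.inl ⟨h, hi⟩)
    · exact Or.inl (Or.inr ⟨h, hi⟩)

theorem above_asymm (r : Fin n) {a b : Fin n} (h1 : above A f Z r a b) :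
    ¬ above A f Z r b a := by
  rintro (⟨h, hi⟩ | ⟨h, hi⟩)
  · rcases h1 with ⟨h', _⟩ | ⟨_, hi'⟩
    · exact lt_asymm h h'
    · exact hi' hi
  · rcases h1 with ⟨_, hi'⟩ | ⟨h', _⟩
    · exact hi hi'
    · exact lt_asymm h h'

theorem above_trans (hc : Compat A f Z) (r : Fin n) {a b c : Fin n}
    (hab : above A f Z r a b) (hbc : above A f Z r b c) : above A f Z r a c := by
  have hac : a ≠ c := by
    rintro rfl
    exact above_asymm r hab hbc
  rcases hab with ⟨hab, ⟨j, hj, hja, hjb⟩⟩ | ⟨hba, hnba⟩
  · rcases hbc with ⟨hbc, ⟨k, hk, hkb, hkc⟩⟩ | ⟨hcb, hncb⟩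
    · -- a < b < c
      refine Or.inl ⟨lt_trans hab hbc, ?_⟩
      by_cases hjc : V A Z (f j) c
      · by_cases hka : V A Z (f k) a
        · exact ⟨k, hk, hka, hkc⟩
        · exact absurd ⟨hja, hjb, hjc, hka, hkb, hkc⟩ (no_alt hc j k a b c hab hbc)
      · exact ⟨j, hj, hja, hjc⟩
    · -- a < b, c < b, no inversion of (c, b)
      rcases lt_or_gt_of_ne hac with h | h
      · refine Or.inl ⟨h, j, hj, hja, ?_⟩
        intro hjc
        exact hncb ⟨j, hj, hjc, hjb⟩
      · refine Or.inr ⟨h, ?_⟩
        rintro ⟨l, hl, hlc, hla⟩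
        have hlb : V A Z (f l) b := by
          by_contra hlb
          exact hncb ⟨l, hl, hlc, hlb⟩
        have hjc : ¬ V A Z (f j) c := fun hjc => hncb ⟨j, hj, hjc, hjb⟩
        exact no_alt hc l j c a b h hab ⟨hlc, hla, hlb, hjc, hja, hjb⟩
  · rcases hbc with ⟨hbc, ⟨j, hj, hjb, hjc⟩⟩ | ⟨hcb, hncb⟩
    · -- b < a, no inversion of (b, a); b < c inverted
      have hja : V A Z (f j) a := by
        by_contra hja
        exact hnba ⟨j, hj, hjb, hja⟩
      rcases lt_or_gt_of_ne hac with h | h
      · exact Or.inl ⟨h, j, hj, hja, hjc⟩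
      · refine Or.inr ⟨h, ?_⟩
        rintro ⟨l, hl, hlc, hla⟩
        have hlb : ¬ V A Z (f l) b := fun hlb => hnba ⟨l, hl, hlb, hla⟩
        exact no_alt hc j l b c a hbc h ⟨hjb, hjc, hja, hlb, hlc, hla⟩
    · -- c < b < a
      refine Or.inr ⟨lt_trans hcb hba, ?_⟩
      rintro ⟨l, hl, hlc, hla⟩
      have hlb : V A Z (f l) b := by
        by_contra hlb
        exact hncb ⟨l, hl, hlc, hlb⟩
      exact hnba ⟨l, hl, hlb, hla⟩

theorem invr_mono {r r' a b : Fin n} (hrr : r ≤ r') (h : invr A f Z r a b) :
    invr A f Z r' a b := by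
  obtain ⟨j, hj, h1, h2⟩ := h
  exact ⟨j, le_trans hj hrr, h1, h2⟩


open Classical in
/-- The rank of a column in the order at row-time `r`: the number of columns above it. -/
noncomputable def rank (A : Fin n → Fin n → Bool) {s : ℕ} (f : Fin s → Fin n) (Z : Finset (Fin n))
    (r c : Fin n) : ℕ :=
  (univ.filter fun x => above A f Z r x c).card

theorem rank_lt_of_above (hc : Compat A f Z) (r : Fin n) {a b : Fin n}
    (h : above A f Z r a b) : rank A f Z r a < rank A f Z r b := by
  classical
  unfold rank
  apply card_lt_card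
  rw [ssubset_iff_of_subset]
  · refine ⟨a, ?_, ?_⟩
    · simp [h]
    · simp [above_irrefl]
  · intro x hx
    simp only [mem_filter, mem_univ, true_and] at hx ⊢
    exact above_trans hc r hx h

theorem rank_inj (hc : Compat A f Z) (r : Fin n) {a b : Fin n}
    (h : rank A f Z r a = rank A f Z r b) : a = b := by
  by_contra hab
  rcases above_total (A := A) (f := f) (Z := Z) r hab with h1 | h1
  · exact absurd h (ne_of_lt (rank_lt_of_above hc r h1))
  · exact absurd h.symm (ne_of_lt (rank_lt_of_above hc r h1))

theorem rank_lt_n (r c : Fin n) : rank A f Z r c < n := by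
  classical
  unfold rank
  have h : (univ.filter fun x => above A f Z r x c) ⊂ (univ : Finset (Fin n)) := by
    rw [ssubset_iff_of_subset (filter_subset _ _)]
    exact ⟨c, mem_univ c, by simp [above_irrefl]⟩
  simpa using card_lt_card h

theorem card_rank_lt (hc : Compat A f Z) (r : Fin n) (k : ℕ) (hk : k ≤ n) :
    (univ.filter fun c => rank A f Z r c < k).card = k := by
  classical
  have h1 : (univ.filter fun c => rank A f Z r c < k).card ≤ k := by
    have := card_le_card_of_injOn (s := univ.filter fun c => rank A f Z r c < k)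
      (t := range k) (rank A f Z r)
      (by intro c hc'; simpa using hc')
      (by intro a _ b _ hab; exact rank_inj hc r hab)
    simpa using this
  have h2 : (univ.filter fun c => ¬ rank A f Z r c < k).card ≤ n - k := by
    have := card_le_card_of_injOn (s := univ.filter fun c => ¬ rank A f Z r c < k)
      (t := Ico k n) (rank A f Z r)
      (by
        intro c hc'
        have h3 := rank_lt_n (A := A) (f := f) (Z := Z) r c
        simp only [coe_filter, mem_univ, true_and, Set.mem_ofPred_eq, not_lt] at hc'
        simp only [coe_Ico, Set.mem_Ico]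
        exact ⟨hc', h3⟩)
      (by intro a _ b _ hab; exact rank_inj hc r hab)
    simpa using this
  have h3 := card_filter_add_card_filter_not (s := (univ : Finset (Fin n)))
    (fun c => rank A f Z r c < k)
  simp only [card_univ, Fintype.card_fin] at h3
  omega

/-- The number of ones in a row. -/
def krow (A : Fin n → Fin n → Bool) (r : Fin n) : ℕ :=
  (univ.filter fun c => A r c = true).card

theorem krow_le (A : Fin n → Fin n → Bool) (r : Fin n) : krow A r ≤ n := by
  unfold krow
  simpa using card_le_univ (univ.filter fun c => A r c = true)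

open Classical in
/-- The rounded matrix: row `r` is the top segment, of the same size as row `r` of `A`,
of the order at row-time `r`. -/
noncomputable def Bmat (A : Fin n → Fin n → Bool) {s : ℕ} (f : Fin s → Fin n)
    (Z : Finset (Fin n)) (r c : Fin n) : Bool :=
  decide (rank A f Z r c < krow A r)

theorem Bmat_true {r c : Fin n} : Bmat A f Z r c = true ↔ rank A f Z r c < krow A r := by
  simp [Bmat]

theorem Bmat_false {r c : Fin n} : Bmat A f Z r c = false ↔ ¬ rank A f Z r c < krow A r := by
  simp [Bmat]

theorem Bmat_up (hc : Compat A f Z) (r : Fin n) {a b : Fin n} (h : above A f Z r a b)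
    (hb : Bmat A f Z r b = true) : Bmat A f Z r a = true := by
  rw [Bmat_true] at hb ⊢
  exact lt_trans (rank_lt_of_above hc r h) hb

theorem Bmat_IFree (hc : Compat A f Z) : IFree (Bmat A f Z) := by
  intro r1 r2 c1 c2 hr hcc ⟨h1, h2, h3, h4⟩
  have hne : c1 ≠ c2 := ne_of_lt hcc
  rcases above_total (A := A) (f := f) (Z := Z) r1 hne with h | h
  · rcases h with ⟨_, hi⟩ | ⟨hlt, _⟩
    · have hi2 : invr A f Z r2 c1 c2 := invr_mono (le_of_lt hr) hi
      have h5 := Bmat_up hc r2 (Or.inl ⟨hcc, hi2⟩) h4
      rw [h3] at h5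
      exact Bool.false_ne_true h5
    · exact lt_asymm hcc hlt
  · have h5 := Bmat_up hc r1 h h1
    rw [h2] at h5
    exact Bool.false_ne_true h5

open Classical in
/-- Violations of row `r` against the order at row-time `r`. -/
noncomputable def viol (A : Fin n → Fin n → Bool) {s : ℕ} (f : Fin s → Fin n)
    (Z : Finset (Fin n)) (r : Fin n) : Finset (Fin n × Fin n) :=
  univ.filter fun p : Fin n × Fin n => above A f Z r p.1 p.2 ∧ A r p.1 = false ∧ A r p.2 = true

/-- The number of entries of row `r` changed by the rounding. -/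
noncomputable def rowdiff (A : Fin n → Fin n → Bool) {s : ℕ} (f : Fin s → Fin n)
    (Z : Finset (Fin n)) (r : Fin n) : ℕ :=
  (univ.filter fun c => A r c ≠ Bmat A f Z r c).card

theorem rowdiff_sq_le (hc : Compat A f Z) (r : Fin n) :
    (rowdiff A f Z r) ^ 2 ≤ 4 * (viol A f Z r).card := by
  classical
  set S : Finset (Fin n) := univ.filter fun c => A r c = true with hS
  set T : Finset (Fin n) := univ.filter fun c => rank A f Z r c < krow A r with hT
  have hcard : T.card = S.card := by
    rw [hT, card_rank_lt hc r _ (krow_le A r)]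
    rfl
  have hfil : (univ.filter fun c => A r c ≠ Bmat A f Z r c) = (S \ T) ∪ (T \ S) := by
    ext c
    simp only [mem_filter, mem_univ, true_and, mem_union, mem_sdiff, hS, hT]
    by_cases hA : A r c = true
    · by_cases hB : rank A f Z r c < krow A r
      · have : Bmat A f Z r c = true := Bmat_true.2 hB
        simp [hA, hB, this]
      · have : Bmat A f Z r c = false := Bmat_false.2 hB
        simp [hA, hB, this]
    · have hA' : A r c = false := by simpa using hA
      by_cases hB : rank A f Z r c < krow A r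
      · have : Bmat A f Z r c = true := Bmat_true.2 hB
        simp [hA', hB, this]
      · have : Bmat A f Z r c = false := Bmat_false.2 hB
        simp [hA', hB, this]
  have hdisj : Disjoint (S \ T) (T \ S) := by
    rw [disjoint_left]
    intro c h1 h2
    rw [mem_sdiff] at h1 h2
    exact h1.2 h2.1
  have h1 : (S \ T).card + (S ∩ T).card = S.card := card_sdiff_add_card_inter S T
  have h2 : (T \ S).card + (T ∩ S).card = T.card := card_sdiff_add_card_inter T S
  have h3 : (S ∩ T).card = (T ∩ S).card := by rw [inter_comm]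
  have hm : (S \ T).card = (T \ S).card := by omega
  have hsub : (T \ S) ×ˢ (S \ T) ⊆ viol A f Z r := by
    intro p hp
    rw [mem_product, mem_sdiff, mem_sdiff] at hp
    obtain ⟨⟨ha1, ha2⟩, ⟨hb1, hb2⟩⟩ := hp
    simp only [hS, hT, mem_filter, mem_univ, true_and] at ha1 ha2 hb1 hb2
    have hne : p.1 ≠ p.2 := by
      intro h
      rw [h] at ha1
      exact hb2 ha1
    have hab : above A f Z r p.1 p.2 := by
      rcases above_total (A := A) (f := f) (Z := Z) r hne with h | h
      · exact h
      · have := rank_lt_of_above hc r h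
        omega
    simp only [viol, mem_filter, mem_univ, true_and]
    refine ⟨hab, ?_, hb1⟩
    simpa using ha2
  have h4 : (T \ S).card * (S \ T).card ≤ (viol A f Z r).card := by
    rw [← card_product]
    exact card_le_card hsub
  have h5 : rowdiff A f Z r = (S \ T).card + (T \ S).card := by
    unfold rowdiff
    rw [hfil, card_union_of_disjoint hdisj]
  rw [h5, hm]
  rw [hm] at h4
  nlinarith [h4]

/-- Unserved pairs of row `r`: column pairs `b < a` with `b` in row `r`, `a` not in row `r`,
such that no sample row at or before `r` has this type. -/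
def unsSet (A : Fin n → Fin n → Bool) {s : ℕ} (f : Fin s → Fin n) (r : Fin n) :
    Finset (Fin n × Fin n) :=
  univ.filter fun p : Fin n × Fin n =>
    p.1 < p.2 ∧ A r p.1 = true ∧ A r p.2 = false ∧
      ∀ j, f j ≤ r → ¬ (A (f j) p.1 = true ∧ A (f j) p.2 = false)

theorem viol_card_le (r : Fin n) :
    (viol A f Z r).card ≤ n * Z.card
      + (∑ j, if f j < r then (invSet A (f j) r).card else 0) + (unsSet A f r).card := by
  classical
  have hsub : viol A f Z r ⊆ ((univ : Finset (Fin n)) ×ˢ Z
      ∪ (univ.biUnion fun j => if f j < r then invSet A (f j) r else ∅))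
      ∪ (unsSet A f r).image Prod.swap := by
    rintro ⟨a, b⟩ hp
    simp only [viol, mem_filter, mem_univ, true_and] at hp
    obtain ⟨hab, hra, hrb⟩ := hp
    by_cases hbZ : b ∈ Z
    · apply mem_union_left
      apply mem_union_left
      simp [hbZ]
    · rcases hab with ⟨hlt, ⟨j, hj, hVa, hVb⟩⟩ | ⟨hlt, hni⟩
      · apply mem_union_left
        apply mem_union_right
        have hjb : A (f j) b = false := by
          by_contra h
          have h' : A (f j) b = true := by simpa using h
          exact hVb ⟨h', hbZ⟩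
        have hne : f j ≠ r := by
          intro h
          rw [h] at hVa
          rw [hVa.1] at hra
          exact Bool.noConfusion hra
        have hjr : f j < r := lt_of_le_of_ne hj hne
        rw [mem_biUnion]
        refine ⟨j, mem_univ j, ?_⟩
        rw [if_pos hjr]
        simp only [invSet, mem_filter, mem_univ, true_and]
        exact ⟨hlt, hVa.1, hra, hrb, hjb⟩
      · apply mem_union_right
        rw [mem_image]
        refine ⟨(b, a), ?_, rfl⟩
        simp only [unsSet, mem_filter, mem_univ, true_and]
        refine ⟨hlt, hrb, hra, ?_⟩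
        intro j hj ⟨h1, h2⟩
        apply hni
        refine ⟨j, hj, ⟨h1, hbZ⟩, ?_⟩
        rintro ⟨h3, _⟩
        rw [h2] at h3
        exact Bool.false_ne_true h3
  refine le_trans (card_le_card hsub) ?_
  refine le_trans (card_union_le _ _) ?_
  refine Nat.add_le_add (le_trans (card_union_le _ _) (Nat.add_le_add ?_ ?_)) card_image_le
  · simp [card_product]
  · refine le_trans card_biUnion_le ?_
    apply sum_le_sum
    intro j _
    split_ifs <;> simp

theorem diff_eq_sum (B : Fin n → Fin n → Bool) :
    diff A B = ∑ r, (univ.filter fun c => A r c ≠ B r c).card := by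
  classical
  unfold diff
  rw [card_filter, Fintype.sum_prod_type]
  apply sum_congr rfl
  intro r _
  rw [card_filter]

/-- The deterministic core: from compatible (virtual) sample rows one gets an identity-free
matrix whose distance from `A` is controlled by three counts. -/
theorem core (hc : Compat A f Z) :
    ∃ B : Fin n → Fin n → Bool, IFree B ∧
      (diff A B) ^ 2 ≤ 4 * n * ∑ r, (n * Z.card
        + (∑ j, if f j < r then (invSet A (f j) r).card else 0) + (unsSet A f r).card) := by
  classical
  refine ⟨Bmat A f Z, Bmat_IFree hc, ?_⟩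
  have h1 : diff A (Bmat A f Z) = ∑ r, rowdiff A f Z r := diff_eq_sum _
  rw [h1]
  have h2 : (∑ r, rowdiff A f Z r) ^ 2
      ≤ (univ : Finset (Fin n)).card * ∑ r, (rowdiff A f Z r) ^ 2 :=
    sq_sum_le_card_mul_sum_sq
  have h3 : ∑ r, (rowdiff A f Z r) ^ 2 ≤ ∑ r, 4 * (n * Z.card
        + (∑ j, if f j < r then (invSet A (f j) r).card else 0) + (unsSet A f r).card) := by
    apply sum_le_sum
    intro r _
    exact le_trans (rowdiff_sq_le hc r) (Nat.mul_le_mul_left 4 (viol_card_le r))
  rw [card_univ, Fintype.card_fin] at h2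
  calc (∑ r, rowdiff A f Z r) ^ 2 ≤ n * ∑ r, (rowdiff A f Z r) ^ 2 := h2
    _ ≤ n * ∑ r, 4 * (n * Z.card
        + (∑ j, if f j < r then (invSet A (f j) r).card else 0) + (unsSet A f r).card) :=
        Nat.mul_le_mul_left n h3
    _ = 4 * n * ∑ r, (n * Z.card
        + (∑ j, if f j < r then (invSet A (f j) r).card else 0) + (unsSet A f r).card) := by
        rw [← mul_sum]; ring

end Core

end Vale.Agent.Helper20.P037
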