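import Mathlib
import Vale.Agent.Helper20.P037Core

/-!
Helper file for P037 (identity pattern): the averaging argument over all families
of sample rows.
-/

namespace Vale.Agent.Helper20.P037

open Finset

variable {n : ℕ}

/-- A discrete intermediate value statement for two disjoint predicates on `Fin n`. -/
theorem ivt_count (P Q : Fin n → Prop) [DecidablePred P] [DecidablePred Q]
    (hPQ : ∀ c, ¬ (P c ∧ Q c)) :
    ∃ t : ℕ, (univ.filter fun c : Fin n => P c ∧ c.val < t).card
      = (univ.filter fun c : Fin n => Q c ∧ t ≤ c.val).card := by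
  classical
  let a : ℕ → ℕ := fun t => (univ.filter fun c : Fin n => P c ∧ c.val < t).card
  let b : ℕ → ℕ := fun t => (univ.filter fun c : Fin n => Q c ∧ t ≤ c.val).card
  have hex : ∃ t, b t ≤ a t := by
    refine ⟨n, ?_⟩
    have : b n = 0 := by
      simp only [b, card_eq_zero, filter_eq_empty_iff]
      intro c _ h
      exact absurd c.isLt (not_lt.2 h.2)
    omega
  have hstep : ∀ m, a (m + 1) + b m ≤ a m + b (m + 1) + 1 := by
    intro m
    have h1 : (univ.filter fun c : Fin n => c.val = m).card ≤ 1 := by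
      rw [card_le_one]
      intro x hx y hy
      simp only [mem_filter, mem_univ, true_and] at hx hy
      exact Fin.ext (hx.trans hy.symm)
    have h2 : a (m + 1) + b m
        ≤ a m + b (m + 1) + (univ.filter fun c : Fin n => c.val = m).card := by
      simp only [a, b, card_filter]
      rw [← sum_add_distrib, ← sum_add_distrib, ← sum_add_distrib]
      apply sum_le_sum
      intro c _
      by_cases hP : P c
      · by_cases hQ : Q c
        · exact absurd ⟨hP, hQ⟩ (hPQ c)
        · simp only [hP, hQ, true_and, false_and, if_false]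
          split_ifs <;> omega
      · by_cases hQ : Q c
        · simp only [hP, hQ, true_and, false_and, if_false]
          split_ifs <;> omega
        · simp only [hP, hQ, false_and, if_false]
          omega
    omega
  obtain ⟨t, ht, hmin⟩ : ∃ t, b t ≤ a t ∧ ∀ m < t, ¬ b m ≤ a m :=
    ⟨Nat.find hex, Nat.find_spec hex, fun m hm => Nat.find_min hex hm⟩
  refine ⟨t, ?_⟩
  change a t = b t
  rcases Nat.eq_zero_or_pos t with h0 | hpos
  · subst h0
    have : a 0 = 0 := by
      simp [a]
    omega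
  · obtain ⟨m, rfl⟩ : ∃ m, t = m + 1 := ⟨t - 1, by omega⟩
    have h1 := hmin m (by omega)
    have h2 := hstep m
    omega

/-- The inversions of a row pair have a vertex cover of size at most twice the square root
of their number. -/
theorem exists_cover (A : Fin n → Fin n → Bool) (q r : Fin n) :
    ∃ W : Finset (Fin n), (∀ p ∈ invSet A q r, p.1 ∈ W ∨ p.2 ∈ W) ∧
      W.card ^ 2 ≤ 4 * (invSet A q r).card := by
  classical
  obtain ⟨t, ht⟩ := ivt_count (fun c => A q c = true ∧ A r c = false)
    (fun c => A r c = true ∧ A q c = false) (by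
      rintro c ⟨⟨h1, _⟩, ⟨_, h2⟩⟩
      rw [h1] at h2
      exact Bool.noConfusion h2)
  set W1 := univ.filter fun c : Fin n => (A q c = true ∧ A r c = false) ∧ c.val < t with hW1
  set W2 := univ.filter fun c : Fin n => (A r c = true ∧ A q c = false) ∧ t ≤ c.val with hW2
  refine ⟨W1 ∪ W2, ?_, ?_⟩
  · rintro ⟨c1, c2⟩ hp
    simp only [invSet, mem_filter, mem_univ, true_and] at hp
    obtain ⟨hlt, h1, h2, h3, h4⟩ := hp
    by_cases hc : c1.val < t
    · left
      rw [mem_union]
      left
      simp only [hW1, mem_filter, mem_univ, true_and]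
      exact ⟨⟨h1, h2⟩, hc⟩
    · right
      rw [mem_union]
      right
      simp only [hW2, mem_filter, mem_univ, true_and]
      refine ⟨⟨h3, h4⟩, ?_⟩
      have : c1.val < c2.val := hlt
      omega
  · have hsub : W1 ×ˢ W2 ⊆ invSet A q r := by
      rintro ⟨c1, c2⟩ hp
      simp only [mem_product, hW1, hW2, mem_filter, mem_univ, true_and] at hp
      obtain ⟨⟨⟨h1, h2⟩, h3⟩, ⟨⟨h4, h5⟩, h6⟩⟩ := hp
      simp only [invSet, mem_filter, mem_univ, true_and]
      refine ⟨?_, h1, h2, h4, h5⟩
      rw [Fin.lt_def]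
      omega
    have h1 : W1.card * W2.card ≤ (invSet A q r).card := by
      rw [← card_product]
      exact card_le_card hsub
    have h2 : (W1 ∪ W2).card ≤ W1.card + W2.card := card_union_le _ _
    have h3 : W1.card = W2.card := ht
    rw [h3] at h1
    calc (W1 ∪ W2).card ^ 2 ≤ (W1.card + W2.card) ^ 2 := Nat.pow_le_pow_left h2 2
      _ = 4 * (W2.card * W2.card) := by rw [h3]; ring
      _ ≤ _ := Nat.mul_le_mul_left 4 h1

/-- A chosen small vertex cover of the inversions of a row pair. -/
noncomputable def vcov (A : Fin n → Fin n → Bool) (q r : Fin n) : Finset (Fin n) :=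
  Classical.choose (exists_cover A q r)

theorem vcov_cover (A : Fin n → Fin n → Bool) (q r : Fin n) :
    ∀ p ∈ invSet A q r, p.1 ∈ vcov A q r ∨ p.2 ∈ vcov A q r :=
  (Classical.choose_spec (exists_cover A q r)).1

theorem vcov_card (A : Fin n → Fin n → Bool) (q r : Fin n) :
    (vcov A q r).card ^ 2 ≤ 4 * (invSet A q r).card :=
  (Classical.choose_spec (exists_cover A q r)).2

/-- The blanked columns for a family of sample rows: the union of the chosen vertex covers
over all ordered pairs of sample rows. -/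
noncomputable def Zset (A : Fin n → Fin n → Bool) {s : ℕ} (f : Fin s → Fin n) :
    Finset (Fin n) :=
  (univ : Finset (Fin s × Fin s)).biUnion fun p =>
    if f p.1 < f p.2 then vcov A (f p.1) (f p.2) else ∅

theorem compat_Zset (A : Fin n → Fin n → Bool) {s : ℕ} (f : Fin s → Fin n) :
    Compat A f (Zset A f) := by
  intro j j' hlt c1 c2 hcc ⟨h1, h2, h3, h4⟩
  have hc1 : c1 ∉ Zset A f := h1.2
  have hc2 : c2 ∉ Zset A f := h3.2
  have h2' : A (f j') c1 = false := by
    by_contra h
    exact h2 ⟨by simpa using h, hc1⟩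
  have h4' : A (f j) c2 = false := by
    by_contra h
    exact h4 ⟨by simpa using h, hc2⟩
  have hmem : (c1, c2) ∈ invSet A (f j) (f j') := by
    simp only [invSet, mem_filter, mem_univ, true_and]
    exact ⟨hcc, h1.1, h2', h3.1, h4'⟩
  have hsub : vcov A (f j) (f j') ⊆ Zset A f := by
    intro c hc
    unfold Zset
    rw [mem_biUnion]
    refine ⟨(j, j'), mem_univ _, ?_⟩
    simp only
    rw [if_pos hlt]
    exact hc
  rcases vcov_cover A (f j) (f j') _ hmem with h | h
  · exact hc1 (hsub h)
  · exact hc2 (hsub h)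

/-- Weight of a row pair: the size of its chosen cover when the pair is increasing. -/
noncomputable def gW (A : Fin n → Fin n → Bool) (q r : Fin n) : ℕ :=
  if q < r then (vcov A q r).card else 0

/-- The total cover weight. -/
noncomputable def Wtot (A : Fin n → Fin n → Bool) : ℕ := ∑ q, ∑ r, gW A q r

/-- The total number of inversions over increasing row pairs. -/
def Ninv (A : Fin n → Fin n → Bool) : ℕ :=
  ∑ q, ∑ r, if q < r then (invSet A q r).card else 0

theorem Zset_card_le (A : Fin n → Fin n → Bool) {s : ℕ} (f : Fin s → Fin n) :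
    (Zset A f).card ≤ ∑ p : Fin s × Fin s, gW A (f p.1) (f p.2) := by
  unfold Zset
  refine le_trans card_biUnion_le ?_
  apply sum_le_sum
  intro p _
  unfold gW
  split_ifs <;> simp

theorem Wtot_sq (A : Fin n → Fin n → Bool) : (Wtot A) ^ 2 ≤ 4 * n ^ 2 * Ninv A := by
  have h1 : Wtot A = ∑ p : Fin n × Fin n, gW A p.1 p.2 := by
    unfold Wtot
    rw [Fintype.sum_prod_type]
  have h2 : Ninv A = ∑ p : Fin n × Fin n, if p.1 < p.2 then (invSet A p.1 p.2).card else 0 := by
    unfold Ninv
    rw [Fintype.sum_prod_type]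
  have h3 : (∑ p : Fin n × Fin n, gW A p.1 p.2) ^ 2
      ≤ (univ : Finset (Fin n × Fin n)).card * ∑ p : Fin n × Fin n, (gW A p.1 p.2) ^ 2 :=
    sq_sum_le_card_mul_sum_sq
  have h4 : ∑ p : Fin n × Fin n, (gW A p.1 p.2) ^ 2
      ≤ ∑ p : Fin n × Fin n, 4 * (if p.1 < p.2 then (invSet A p.1 p.2).card else 0) := by
    apply sum_le_sum
    intro p _
    unfold gW
    split_ifs
    · exact vcov_card A p.1 p.2
    · simp
  rw [card_univ, Fintype.card_prod, Fintype.card_fin] at h3
  rw [h1, h2]
  calc (∑ p : Fin n × Fin n, gW A p.1 p.2) ^ 2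
      ≤ n * n * ∑ p : Fin n × Fin n, (gW A p.1 p.2) ^ 2 := h3
    _ ≤ n * n * ∑ p : Fin n × Fin n,
          4 * (if p.1 < p.2 then (invSet A p.1 p.2).card else 0) :=
        Nat.mul_le_mul_left _ h4
    _ = 4 * n ^ 2 * ∑ p : Fin n × Fin n,
          (if p.1 < p.2 then (invSet A p.1 p.2).card else 0) := by
        rw [← mul_sum]; ring


section Marginals

theorem card_split {ι : Type*} [Fintype ι] [DecidableEq ι] (j : ι) :
    n ^ Fintype.card ι = n * n ^ Fintype.card {i // i ≠ j} := by
  have h := Fintype.card_congr (Equiv.funSplitAt j (Fin n))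
  rw [Fintype.card_prod, Fintype.card_fun, Fintype.card_fun, Fintype.card_fin] at h
  exact h

theorem sum_coord_gen {ι : Type*} [Fintype ι] [DecidableEq ι] (j : ι)
    (g : Fin n → ({i // i ≠ j} → Fin n) → ℕ) :
    ∑ f : ι → Fin n, g (f j) (fun i => f i.1)
      = ∑ q, ∑ f' : {i // i ≠ j} → Fin n, g q f' := by
  rw [← Fintype.sum_prod_type']
  exact Fintype.sum_equiv (Equiv.funSplitAt j (Fin n)) _ _ (fun f => rfl)

/-- One-coordinate marginal. -/
theorem sum_coord {ι : Type*} [Fintype ι] [DecidableEq ι] (j : ι) (h : Fin n → ℕ) :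
    n * ∑ f : ι → Fin n, h (f j) = n ^ Fintype.card ι * ∑ q, h q := by
  have h1 := sum_coord_gen (n := n) j (fun q _ => h q)
  rw [h1, card_split j]
  simp only [sum_const, card_univ, smul_eq_mul]
  rw [Fintype.card_fun, Fintype.card_fin, ← mul_sum]
  ring

/-- Two-coordinate marginal. -/
theorem sum_coord2 {ι : Type*} [Fintype ι] [DecidableEq ι] (j j' : ι) (hne : j' ≠ j)
    (g : Fin n → Fin n → ℕ) :
    n ^ 2 * ∑ f : ι → Fin n, g (f j) (f j') = n ^ Fintype.card ι * ∑ q, ∑ q', g q q' := by
  have h1 := sum_coord_gen (n := n) j (fun q f' => g q (f' ⟨j', hne⟩))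
  simp only at h1
  have h2 : ∀ q, n * ∑ f' : {i // i ≠ j} → Fin n, g q (f' ⟨j', hne⟩)
      = n ^ Fintype.card {i // i ≠ j} * ∑ q', g q q' :=
    fun q => sum_coord (⟨j', hne⟩ : {i // i ≠ j}) (g q)
  rw [h1, card_split j, pow_two, mul_assoc, mul_sum, sum_congr rfl (fun q _ => h2 q),
    ← mul_sum, mul_assoc]

end Marginals


section Sums

variable (A : Fin n → Fin n → Bool) (s : ℕ)

/-- Sum over all sample families of the number of blanked columns. -/
theorem sum_Zset_le :
    n ^ 2 * ∑ f : Fin s → Fin n, (Zset A f).card ≤ s ^ 2 * (n ^ s * Wtot A) := by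
  have h1 : ∑ f : Fin s → Fin n, (Zset A f).card
      ≤ ∑ f : Fin s → Fin n, ∑ p : Fin s × Fin s, gW A (f p.1) (f p.2) :=
    sum_le_sum fun f _ => Zset_card_le A f
  rw [sum_comm] at h1
  have h2 : ∀ p : Fin s × Fin s,
      n ^ 2 * ∑ f : Fin s → Fin n, gW A (f p.1) (f p.2) ≤ n ^ s * Wtot A := by
    intro p
    by_cases hp : p.2 = p.1
    · have h0 : ∑ f : Fin s → Fin n, gW A (f p.1) (f p.2) = 0 := by
        apply sum_eq_zero
        intro f _
        rw [hp]
        simp [gW]
      rw [h0]
      simp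
    · have h3 := sum_coord2 (n := n) p.1 p.2 hp (gW A)
      rw [Fintype.card_fin] at h3
      rw [h3]
      rfl
  calc n ^ 2 * ∑ f : Fin s → Fin n, (Zset A f).card
      ≤ n ^ 2 * ∑ p : Fin s × Fin s, ∑ f : Fin s → Fin n, gW A (f p.1) (f p.2) :=
        Nat.mul_le_mul_left _ h1
    _ = ∑ p : Fin s × Fin s, n ^ 2 * ∑ f : Fin s → Fin n, gW A (f p.1) (f p.2) :=
        mul_sum _ _ _
    _ ≤ ∑ p : Fin s × Fin s, n ^ s * Wtot A := sum_le_sum fun p _ => h2 p
    _ = s ^ 2 * (n ^ s * Wtot A) := by
        simp only [sum_const, card_univ, Fintype.card_prod, Fintype.card_fin, smul_eq_mul]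
        ring

/-- Sum over all sample families of the inversion counts against sample rows. -/
theorem sum_inv_eq :
    n * ∑ f : Fin s → Fin n, ∑ r, ∑ j, (if f j < r then (invSet A (f j) r).card else 0)
      = s * (n ^ s * Ninv A) := by
  have h1 : ∑ f : Fin s → Fin n, ∑ r, ∑ j, (if f j < r then (invSet A (f j) r).card else 0)
      = ∑ r, ∑ j, ∑ f : Fin s → Fin n, (if f j < r then (invSet A (f j) r).card else 0) := by
    rw [sum_comm]
    apply sum_congr rfl
    intro r _
    rw [sum_comm]
  rw [h1, mul_sum]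
  have h2 : ∀ r : Fin n,
      n * ∑ j : Fin s, ∑ f : Fin s → Fin n, (if f j < r then (invSet A (f j) r).card else 0)
      = s * (n ^ s * ∑ q, if q < r then (invSet A q r).card else 0) := by
    intro r
    rw [mul_sum]
    have h3 : ∀ j : Fin s,
        n * ∑ f : Fin s → Fin n, (if f j < r then (invSet A (f j) r).card else 0)
        = n ^ s * ∑ q, if q < r then (invSet A q r).card else 0 := by
      intro j
      have h4 := sum_coord (n := n) j (fun q => if q < r then (invSet A q r).card else 0)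
      rw [Fintype.card_fin] at h4
      exact h4
    rw [sum_congr rfl (fun j _ => h3 j)]
    simp only [sum_const, card_univ, Fintype.card_fin, smul_eq_mul]
  rw [sum_congr rfl (fun r _ => h2 r), ← mul_sum, ← mul_sum]
  unfold Ninv
  rw [sum_comm]

theorem pow_succ_bern (m k : ℕ) : m ^ (k + 1) + (k + 1) * m ^ k ≤ (m + 1) ^ (k + 1) := by
  induction k with
  | zero => simp
  | succ k ih =>
    calc m ^ (k + 2) + (k + 2) * m ^ (k + 1)
        ≤ m ^ (k + 2) + (k + 2) * m ^ (k + 1) + (k + 1) * m ^ k := Nat.le_add_right _ _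
      _ = (m + 1) * (m ^ (k + 1) + (k + 1) * m ^ k) := by ring
      _ ≤ (m + 1) * (m + 1) ^ (k + 1) := Nat.mul_le_mul_left _ ih
      _ = (m + 1) ^ (k + 2) := by ring

theorem pow_sum_le (m k : ℕ) : (k + 1) * ∑ i ∈ range m, i ^ k ≤ m ^ (k + 1) := by
  induction m with
  | zero => simp
  | succ m ih =>
    rw [sum_range_succ, mul_add]
    calc (k + 1) * ∑ i ∈ range m, i ^ k + (k + 1) * m ^ k
        ≤ m ^ (k + 1) + (k + 1) * m ^ k := Nat.add_le_add_right ih _
      _ ≤ (m + 1) ^ (k + 1) := pow_succ_bern m k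

theorem sum_comm3 {α β γ : Type*} [Fintype α] [Fintype β] [Fintype γ] (X : α → β → γ → ℕ) :
    ∑ a, ∑ b, ∑ c, X a b c = ∑ c, ∑ b, ∑ a, X a b c := by
  calc ∑ a, ∑ b, ∑ c, X a b c = ∑ b, ∑ a, ∑ c, X a b c := sum_comm
    _ = ∑ b, ∑ c, ∑ a, X a b c := sum_congr rfl (fun b _ => sum_comm)
    _ = ∑ c, ∑ b, ∑ a, X a b c := sum_comm

/-- For a fixed column pair, the count of (row, sample family) pairs leaving it unserved. -/
theorem uns_pair_le (b a : Fin n) :
    ∑ r : Fin n, (univ.filter fun f : Fin s → Fin n =>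
        A r b = true ∧ A r a = false ∧
          ∀ j, f j ≤ r → ¬ (A (f j) b = true ∧ A (f j) a = false)).card
      ≤ ∑ m ∈ range n, m ^ s := by
  classical
  set R : Finset (Fin n) := univ.filter fun r => A r b = true ∧ A r a = false with hR
  set φ : Fin n → ℕ := fun r => (univ.filter fun q : Fin n => ¬ (q ≤ r ∧ q ∈ R)).card with hφ
  have h1 : ∀ r : Fin n, (univ.filter fun f : Fin s → Fin n =>
        A r b = true ∧ A r a = false ∧
          ∀ j, f j ≤ r → ¬ (A (f j) b = true ∧ A (f j) a = false)).card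
      ≤ if r ∈ R then (φ r) ^ s else 0 := by
    intro r
    by_cases hr : r ∈ R
    · rw [if_pos hr]
      have hsub : (univ.filter fun f : Fin s → Fin n =>
          A r b = true ∧ A r a = false ∧
            ∀ j, f j ≤ r → ¬ (A (f j) b = true ∧ A (f j) a = false))
          ⊆ Fintype.piFinset
            (fun _ : Fin s => univ.filter fun q : Fin n => ¬ (q ≤ r ∧ q ∈ R)) := by
        intro f hf
        simp only [mem_filter, mem_univ, true_and] at hf
        rw [Fintype.mem_piFinset]
        intro j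
        simp only [mem_filter, mem_univ, true_and, hR]
        rintro ⟨h1, h2⟩
        exact hf.2.2 j h1 h2
      refine le_trans (card_le_card hsub) ?_
      rw [Fintype.card_piFinset_const]
    · rw [if_neg hr]
      rw [Nat.le_zero, card_eq_zero, filter_eq_empty_iff]
      intro f _ hf
      apply hr
      simp only [hR, mem_filter, mem_univ, true_and]
      exact ⟨hf.1, hf.2.1⟩
  have hlt : ∀ r ∈ R, φ r < n := by
    intro r hr
    have hss : (univ.filter fun q : Fin n => ¬ (q ≤ r ∧ q ∈ R)) ⊂ univ := by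
      rw [ssubset_iff_of_subset (subset_univ _)]
      refine ⟨r, mem_univ r, ?_⟩
      simp [hr]
    have hcl := card_lt_card hss
    rw [card_univ, Fintype.card_fin] at hcl
    exact hcl
  have hanti : ∀ r ∈ R, ∀ r' ∈ R, r < r' → φ r' < φ r := by
    intro r hr r' hr' hlt'
    apply card_lt_card
    rw [ssubset_iff_of_subset]
    · refine ⟨r', ?_, ?_⟩
      · simp only [mem_filter, mem_univ, true_and]
        rintro ⟨h, _⟩
        exact absurd hlt' (not_lt.2 h)
      · simp [hr']
    · intro q hq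
      simp only [mem_filter, mem_univ, true_and] at hq ⊢
      rintro ⟨h1, h2⟩
      exact hq ⟨le_trans h1 (le_of_lt hlt'), h2⟩
  have hinj : ∀ x ∈ R, ∀ y ∈ R, φ x = φ y → x = y := by
    intro r hr r' hr' heq
    by_contra hne
    rcases lt_or_gt_of_ne hne with h | h
    · have := hanti r hr r' hr' h
      omega
    · have := hanti r' hr' r hr h
      omega
  calc ∑ r : Fin n, (univ.filter fun f : Fin s → Fin n =>
        A r b = true ∧ A r a = false ∧
          ∀ j, f j ≤ r → ¬ (A (f j) b = true ∧ A (f j) a = false)).card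
      ≤ ∑ r : Fin n, (if r ∈ R then (φ r) ^ s else 0) := sum_le_sum fun r _ => h1 r
    _ = ∑ r ∈ R, (φ r) ^ s := by rw [sum_ite_mem, univ_inter]
    _ = ∑ m ∈ R.image φ, m ^ s := (sum_image (f := fun m => m ^ s) hinj).symm
    _ ≤ ∑ m ∈ range n, m ^ s := by
        apply sum_le_sum_of_subset
        intro m hm
        rw [mem_image] at hm
        obtain ⟨r, hr, rfl⟩ := hm
        exact mem_range.2 (hlt r hr)

/-- Sum over all sample families of the number of unserved pairs. -/
theorem sum_uns_le :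
    (s + 1) * ∑ f : Fin s → Fin n, ∑ r, (unsSet A f r).card ≤ n ^ 2 * n ^ (s + 1) := by
  classical
  have h0 : ∀ (f : Fin s → Fin n) (r : Fin n), (unsSet A f r).card
      ≤ ∑ p : Fin n × Fin n, if (A r p.1 = true ∧ A r p.2 = false ∧
          ∀ j, f j ≤ r → ¬ (A (f j) p.1 = true ∧ A (f j) p.2 = false)) then 1 else 0 := by
    intro f r
    unfold unsSet
    rw [card_filter]
    apply sum_le_sum
    intro p _
    by_cases h : p.1 < p.2
    · simp only [h, true_and]
      exact le_of_eq (if_congr Iff.rfl rfl rfl)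
    · simp only [h, false_and, if_false]
      exact Nat.zero_le _
  have h1 : ∑ f : Fin s → Fin n, ∑ r, (unsSet A f r).card
      ≤ ∑ p : Fin n × Fin n, ∑ r : Fin n, (univ.filter fun f : Fin s → Fin n =>
        A r p.1 = true ∧ A r p.2 = false ∧
          ∀ j, f j ≤ r → ¬ (A (f j) p.1 = true ∧ A (f j) p.2 = false)).card := by
    calc ∑ f : Fin s → Fin n, ∑ r, (unsSet A f r).card
        ≤ ∑ f : Fin s → Fin n, ∑ r, ∑ p : Fin n × Fin n,
            if (A r p.1 = true ∧ A r p.2 = false ∧
              ∀ j, f j ≤ r → ¬ (A (f j) p.1 = true ∧ A (f j) p.2 = false)) then 1 else 0 :=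
          sum_le_sum fun f _ => sum_le_sum fun r _ => h0 f r
      _ = ∑ p : Fin n × Fin n, ∑ r : Fin n, ∑ f : Fin s → Fin n,
            if (A r p.1 = true ∧ A r p.2 = false ∧
              ∀ j, f j ≤ r → ¬ (A (f j) p.1 = true ∧ A (f j) p.2 = false)) then 1 else 0 := by
          exact sum_comm3 (fun (f : Fin s → Fin n) (r : Fin n) (p : Fin n × Fin n) =>
            if (A r p.1 = true ∧ A r p.2 = false ∧
              ∀ j, f j ≤ r → ¬ (A (f j) p.1 = true ∧ A (f j) p.2 = false)) then 1 else 0)
      _ = _ := by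
          simp only [card_filter]
  have h2 : ∀ p : Fin n × Fin n, (s + 1) * ∑ r : Fin n, (univ.filter fun f : Fin s → Fin n =>
        A r p.1 = true ∧ A r p.2 = false ∧
          ∀ j, f j ≤ r → ¬ (A (f j) p.1 = true ∧ A (f j) p.2 = false)).card ≤ n ^ (s + 1) :=
    fun p => le_trans (Nat.mul_le_mul_left _ (uns_pair_le A s p.1 p.2)) (pow_sum_le n s)
  calc (s + 1) * ∑ f : Fin s → Fin n, ∑ r, (unsSet A f r).card
      ≤ (s + 1) * ∑ p : Fin n × Fin n, ∑ r : Fin n, (univ.filter fun f : Fin s → Fin n =>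
        A r p.1 = true ∧ A r p.2 = false ∧
          ∀ j, f j ≤ r → ¬ (A (f j) p.1 = true ∧ A (f j) p.2 = false)).card :=
        Nat.mul_le_mul_left _ h1
    _ = ∑ p : Fin n × Fin n, (s + 1) * ∑ r : Fin n, (univ.filter fun f : Fin s → Fin n =>
        A r p.1 = true ∧ A r p.2 = false ∧
          ∀ j, f j ≤ r → ¬ (A (f j) p.1 = true ∧ A (f j) p.2 = false)).card :=
        mul_sum _ _ _
    _ ≤ ∑ p : Fin n × Fin n, n ^ (s + 1) := sum_le_sum fun p _ => h2 p
    _ = n ^ 2 * n ^ (s + 1) := by
        simp only [sum_const, card_univ, Fintype.card_prod, Fintype.card_fin, smul_eq_mul]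
        ring

end Sums


section Main

variable (A : Fin n → Fin n → Bool) (s : ℕ)

/-- The total error budget of a sample family. -/
noncomputable def Tot (A : Fin n → Fin n → Bool) {s : ℕ} (f : Fin s → Fin n) : ℕ :=
  ∑ r, (n * (Zset A f).card
    + (∑ j, if f j < r then (invSet A (f j) r).card else 0) + (unsSet A f r).card)

theorem Tot_eq {s : ℕ} (f : Fin s → Fin n) :
    Tot A f = n * n * (Zset A f).card
      + (∑ r, ∑ j, if f j < r then (invSet A (f j) r).card else 0)
      + ∑ r, (unsSet A f r).card := by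
  unfold Tot
  simp only [sum_add_distrib, sum_const, card_univ, Fintype.card_fin, smul_eq_mul]
  ring

theorem sum_Tot_le :
    (s + 1) * n * ∑ f : Fin s → Fin n, Tot A f
      ≤ n ^ s * ((s + 1) * s ^ 2 * n * Wtot A + (s + 1) * s * Ninv A + n ^ 4) := by
  have e2 : ∑ f : Fin s → Fin n, Tot A f
      = n * n * ∑ f : Fin s → Fin n, (Zset A f).card
        + (∑ f : Fin s → Fin n, ∑ r, ∑ j, if f j < r then (invSet A (f j) r).card else 0)
        + ∑ f : Fin s → Fin n, ∑ r, (unsSet A f r).card := by
    rw [sum_congr rfl (fun f _ => Tot_eq A f), sum_add_distrib, sum_add_distrib, ← mul_sum]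
  have a1 := sum_Zset_le A s
  have a2 := sum_inv_eq A s
  have a3 := sum_uns_le A s
  rw [e2]
  generalize (∑ f : Fin s → Fin n, (Zset A f).card) = X at a1 ⊢
  generalize (∑ f : Fin s → Fin n, ∑ r, ∑ j,
    if f j < r then (invSet A (f j) r).card else 0) = Y at a2 ⊢
  generalize (∑ f : Fin s → Fin n, ∑ r, (unsSet A f r).card) = U at a3 ⊢
  calc (s + 1) * n * (n * n * X + Y + U)
      = (s + 1) * n * (n ^ 2 * X) + (s + 1) * (n * Y) + n * ((s + 1) * U) := by ring
    _ ≤ (s + 1) * n * (s ^ 2 * (n ^ s * Wtot A)) + (s + 1) * (s * (n ^ s * Ninv A))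
          + n * (n ^ 2 * n ^ (s + 1)) := by
        rw [a2]
        exact Nat.add_le_add (Nat.add_le_add (Nat.mul_le_mul_left _ a1) (le_refl _))
          (Nat.mul_le_mul_left _ a3)
    _ = n ^ s * ((s + 1) * s ^ 2 * n * Wtot A + (s + 1) * s * Ninv A + n ^ 4) := by ring

/-- The main averaging statement: some identity-free matrix is close to `A` in terms of the
inversion count of `A`. -/
theorem avg_main (hn : 0 < n) :
    ∃ B : Fin n → Fin n → Bool, IFree B ∧
      (s + 1) * (diff A B) ^ 2
        ≤ 4 * ((s + 1) * s ^ 2 * n * Wtot A + (s + 1) * s * Ninv A + n ^ 4) := by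
  classical
  have : NeZero n := ⟨by omega⟩
  have hsum : ∑ f : Fin s → Fin n, (s + 1) * n * Tot A f
      ≤ ∑ _f : Fin s → Fin n,
          ((s + 1) * s ^ 2 * n * Wtot A + (s + 1) * s * Ninv A + n ^ 4) := by
    rw [← mul_sum]
    refine le_trans (sum_Tot_le A s) (le_of_eq ?_)
    simp only [sum_const, card_univ, Fintype.card_fun, Fintype.card_fin, smul_eq_mul]
  obtain ⟨f, -, hf⟩ := exists_le_of_sum_le univ_nonempty hsum
  obtain ⟨B, hB, hdiff⟩ := core (compat_Zset A f)
  refine ⟨B, hB, ?_⟩
  calc (s + 1) * (diff A B) ^ 2 ≤ (s + 1) * (4 * n * Tot A f) :=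
        Nat.mul_le_mul_left _ hdiff
    _ = 4 * ((s + 1) * n * Tot A f) := by ring
    _ ≤ 4 * ((s + 1) * s ^ 2 * n * Wtot A + (s + 1) * s * Ninv A + n ^ 4) :=
        Nat.mul_le_mul_left _ hf

end Main

end Vale.Agent.Helper20.P037
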