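import Mathlib
import Vale.Agent.Helper20.P037Ident

/-!
Polynomial removal bound for the `2 × 2` patterns with two equal rows (helper for P037).
-/

namespace Vale.Agent.Helper20.OrdMat

open Finset
open Vale.Agent.Helper20

variable {n : ℕ}

/-- The column pairs `c1 < c2` at which the row `v` reads `(a, b)`. -/
def pairsRow (a b : Bool) (v : Fin n → Bool) : Finset (Fin n × Fin n) :=
  univ.filter fun p : Fin n × Fin n => p.1 < p.2 ∧ v p.1 = a ∧ v p.2 = b

theorem card_lt_pairs (S : Finset (Fin n)) :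
    2 * ((S ×ˢ S).filter fun p : Fin n × Fin n => p.1 < p.2).card + S.card = S.card ^ 2 := by
  classical
  have h1 : ((S ×ˢ S).filter fun p : Fin n × Fin n => p.2 < p.1).card
      = ((S ×ˢ S).filter fun p : Fin n × Fin n => p.1 < p.2).card := by
    apply card_equiv (Equiv.prodComm _ _)
    intro p
    simp only [mem_filter, mem_product, Equiv.prodComm_apply, Prod.fst_swap, Prod.snd_swap]
    tauto
  have h2 : ((S ×ˢ S).filter fun p : Fin n × Fin n => p.1 = p.2).card = S.card := by
    have hd : ((S ×ˢ S).filter fun p : Fin n × Fin n => p.1 = p.2) = S.diag := by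
      ext p
      simp only [mem_filter, mem_product, mem_diag]
      constructor
      · rintro ⟨⟨h, _⟩, h'⟩
        exact ⟨h, h'⟩
      · rintro ⟨h, h'⟩
        exact ⟨⟨h, h' ▸ h⟩, h'⟩
    rw [hd, diag_card]
  have h3 : (S ×ˢ S).card = S.card ^ 2 := by
    rw [card_product]
    ring
  have h4 := card_filter_add_card_filter_not (s := S ×ˢ S)
    (fun p : Fin n × Fin n => p.1 < p.2)
  have h5 := card_filter_add_card_filter_not
    (s := (S ×ˢ S).filter fun p : Fin n × Fin n => ¬ p.1 < p.2)
    (fun p : Fin n × Fin n => p.1 = p.2)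
  have h6 : ((S ×ˢ S).filter fun p : Fin n × Fin n => ¬ p.1 < p.2).filter
      (fun p : Fin n × Fin n => p.1 = p.2)
      = (S ×ˢ S).filter fun p : Fin n × Fin n => p.1 = p.2 := by
    ext p
    simp only [mem_filter]
    constructor
    · rintro ⟨⟨h, _⟩, h'⟩
      exact ⟨h, h'⟩
    · rintro ⟨h, h'⟩
      exact ⟨⟨h, by rw [h']; exact lt_irrefl _⟩, h'⟩
  have h7 : ((S ×ˢ S).filter fun p : Fin n × Fin n => ¬ p.1 < p.2).filter
      (fun p : Fin n × Fin n => ¬ p.1 = p.2)
      = (S ×ˢ S).filter fun p : Fin n × Fin n => p.2 < p.1 := by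
    ext p
    simp only [mem_filter]
    constructor
    · rintro ⟨⟨h, h1⟩, h2⟩
      exact ⟨h, lt_of_le_of_ne (not_lt.1 h1) (Ne.symm h2)⟩
    · rintro ⟨h, h'⟩
      exact ⟨⟨h, not_lt.2 h'.le⟩, (ne_of_lt h').symm⟩
  rw [h6, h7, h1, h2] at h5
  omega

/-- Every row can be changed in few entries so as to contain no `(a, b)` pair. -/
theorem row_fix (a b : Bool) (v : Fin n → Bool) :
    ∃ w : Fin n → Bool, pairsRow a b w = ∅ ∧
      (univ.filter fun c => v c ≠ w c).card ^ 2 ≤ 4 * (pairsRow a b v).card := by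
  classical
  by_cases hab : a = b
  · subst hab
    set S := univ.filter fun c : Fin n => v c = a with hS
    have hpairs : pairsRow a a v = (S ×ˢ S).filter fun p : Fin n × Fin n => p.1 < p.2 := by
      ext p
      simp only [pairsRow, hS, mem_filter, mem_univ, true_and, mem_product]
      tauto
    have hcount := card_lt_pairs S
    by_cases hk : S.card ≤ 1
    · refine ⟨v, ?_, by simp⟩
      rw [hpairs, ← card_eq_zero]
      have hsq : S.card ^ 2 ≤ S.card := by
        have h01 : S.card = 0 ∨ S.card = 1 := by omega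
        rcases h01 with h | h <;> rw [h] <;> norm_num
      omega
    · refine ⟨fun _ => !a, ?_, ?_⟩
      · rw [pairsRow, filter_eq_empty_iff]
        rintro p - ⟨_, h, _⟩
        simp at h
      · have hS' : (univ.filter fun c => v c ≠ !a) = S := by
          ext c
          simp [hS]
        rw [hS', hpairs]
        have hk2 : 2 ≤ S.card := by omega
        have hsq : 2 * S.card ≤ S.card ^ 2 := by nlinarith
        omega
  · obtain ⟨t, ht⟩ := P037.ivt_count (fun c => v c = a) (fun c => v c = b) (by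
      rintro c ⟨h1, h2⟩
      exact hab (h1.symm.trans h2))
    refine ⟨fun c => if c.val < t then b else a, ?_, ?_⟩
    · rw [pairsRow, filter_eq_empty_iff]
      rintro ⟨c1, c2⟩ - ⟨hlt, h1, h2⟩
      simp only at h1 h2 hlt
      by_cases hc1 : c1.val < t
      · rw [if_pos hc1] at h1
        exact hab h1.symm
      · have hc2 : ¬ c2.val < t := by
          have : c1.val < c2.val := hlt
          omega
        rw [if_neg hc2] at h2
        exact hab h2
    · set W1 := univ.filter fun c : Fin n => v c = a ∧ c.val < t with hW1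
      set W2 := univ.filter fun c : Fin n => v c = b ∧ t ≤ c.val with hW2
      have hsubset : (univ.filter fun c => v c ≠ (if c.val < t then b else a)) ⊆ W1 ∪ W2 := by
        intro c hc
        simp only [mem_filter, mem_univ, true_and] at hc
        rw [mem_union]
        by_cases hct : c.val < t
        · rw [if_pos hct] at hc
          left
          simp only [hW1, mem_filter, mem_univ, true_and]
          refine ⟨?_, hct⟩
          cases hv : v c <;> cases a <;> cases b <;> simp_all
        · rw [if_neg hct] at hc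
          right
          simp only [hW2, mem_filter, mem_univ, true_and]
          refine ⟨?_, not_lt.1 hct⟩
          cases hv : v c <;> cases a <;> cases b <;> simp_all
      have hprod : W1 ×ˢ W2 ⊆ pairsRow a b v := by
        rintro ⟨c1, c2⟩ hp
        simp only [mem_product, hW1, hW2, mem_filter, mem_univ, true_and] at hp
        obtain ⟨⟨h1, h2⟩, ⟨h3, h4⟩⟩ := hp
        simp only [pairsRow, mem_filter, mem_univ, true_and]
        refine ⟨?_, h1, h3⟩
        rw [Fin.lt_def]
        omega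
      have h1 : W1.card * W2.card ≤ (pairsRow a b v).card := by
        rw [← card_product]
        exact card_le_card hprod
      have h2 : (univ.filter fun c => v c ≠ (if c.val < t then b else a)).card
          ≤ W1.card + W2.card :=
        le_trans (card_le_card hsubset) (card_union_le _ _)
      have h3 : W1.card = W2.card := ht
      rw [h3] at h1 h2
      calc (univ.filter fun c => v c ≠ (if c.val < t then b else a)).card ^ 2
          ≤ (W2.card + W2.card) ^ 2 := Nat.pow_le_pow_left h2 2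
        _ = 4 * (W2.card * W2.card) := by ring
        _ ≤ 4 * (pairsRow a b v).card := Nat.mul_le_mul_left 4 h1

/-- The matrix obtained by fixing every row. -/
noncomputable def fixRows (a b : Bool) (A : Matrix (Fin n) (Fin n) Bool) :
    Matrix (Fin n) (Fin n) Bool :=
  fun r => Classical.choose (row_fix a b (A r))

theorem fixRows_pairs (a b : Bool) (A : Matrix (Fin n) (Fin n) Bool) (r : Fin n) :
    pairsRow a b (fixRows a b A r) = ∅ :=
  (Classical.choose_spec (row_fix a b (A r))).1

theorem fixRows_cost (a b : Bool) (A : Matrix (Fin n) (Fin n) Bool) (r : Fin n) :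
    (univ.filter fun c => A r c ≠ fixRows a b A r c).card ^ 2
      ≤ 4 * (pairsRow a b (A r)).card :=
  (Classical.choose_spec (row_fix a b (A r))).2

/-- The total number of (row, column pair) incidences of type `(a, b)`. -/
def Ptot (a b : Bool) (A : Matrix (Fin n) (Fin n) Bool) : ℕ :=
  ∑ r, (pairsRow a b (A r)).card

theorem diff_fixRows_sq (a b : Bool) (A : Matrix (Fin n) (Fin n) Bool) :
    (diff A (fixRows a b A)) ^ 2 ≤ 4 * n * Ptot a b A := by
  have h1 : diff A (fixRows a b A)
      = ∑ r, (univ.filter fun c => A r c ≠ fixRows a b A r c).card :=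
    P037.diff_eq_sum (A := A) (fixRows a b A)
  rw [h1]
  have h2 : (∑ r, (univ.filter fun c => A r c ≠ fixRows a b A r c).card) ^ 2
      ≤ (univ : Finset (Fin n)).card
        * ∑ r, ((univ.filter fun c => A r c ≠ fixRows a b A r c).card) ^ 2 :=
    sq_sum_le_card_mul_sum_sq
  rw [card_univ, Fintype.card_fin] at h2
  have h3 : ∑ r, ((univ.filter fun c => A r c ≠ fixRows a b A r c).card) ^ 2
      ≤ ∑ r, 4 * (pairsRow a b (A r)).card :=
    sum_le_sum fun r _ => fixRows_cost a b A r
  calc (∑ r, (univ.filter fun c => A r c ≠ fixRows a b A r c).card) ^ 2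
      ≤ n * ∑ r, ((univ.filter fun c => A r c ≠ fixRows a b A r c).card) ^ 2 := h2
    _ ≤ n * ∑ r, 4 * (pairsRow a b (A r)).card := Nat.mul_le_mul_left n h3
    _ = 4 * n * Ptot a b A := by
        unfold Ptot
        rw [← mul_sum]
        ring

theorem copies_fixRows (a b : Bool) (A : Matrix (Fin n) (Fin n) Bool) :
    copies !![a, b; a, b] (fixRows a b A) = ∅ := by
  classical
  rw [eq_empty_iff_forall_notMem]
  rintro ⟨ρ, γ⟩ hp
  rw [mem_copies] at hp
  obtain ⟨_, hγ, hc⟩ := hp
  have hmem : (γ 0, γ 1) ∈ pairsRow a b (fixRows a b A (ρ 0)) := by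
    simp only [pairsRow, mem_filter, mem_univ, true_and]
    refine ⟨hγ (by decide), ?_, ?_⟩
    · simpa using hc 0 0
    · simpa using hc 0 1
  rw [fixRows_pairs] at hmem
  exact absurd hmem (notMem_empty _)

theorem Ptot_sq_le (a b : Bool) (A : Matrix (Fin n) (Fin n) Bool) :
    (Ptot a b A) ^ 2 ≤ n ^ 2 * (2 * (copies !![a, b; a, b] A).card + Ptot a b A) := by
  classical
  set M : Fin n × Fin n → Finset (Fin n) :=
    fun p => univ.filter fun r => p ∈ pairsRow a b (A r) with hM
  have h1 : Ptot a b A = ∑ p : Fin n × Fin n, (M p).card := by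
    unfold Ptot
    have e1 : ∀ r : Fin n, (pairsRow a b (A r)).card
        = ∑ p : Fin n × Fin n, if p ∈ pairsRow a b (A r) then 1 else 0 := by
      intro r
      rw [← card_filter]
      congr 1
      ext p
      simp
    rw [sum_congr rfl (fun r _ => e1 r), sum_comm]
    apply sum_congr rfl
    intro p _
    rw [hM, card_filter]
  have h2 : (∑ p : Fin n × Fin n, (M p).card) ^ 2
      ≤ n * n * ∑ p : Fin n × Fin n, (M p).card ^ 2 := by
    have h := sq_sum_le_card_mul_sum_sq (s := (univ : Finset (Fin n × Fin n)))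
      (f := fun p => (M p).card)
    rwa [card_univ, Fintype.card_prod, Fintype.card_fin] at h
  have h3 : ∀ p, (M p).card ^ 2
      = 2 * ((M p ×ˢ M p).filter fun q : Fin n × Fin n => q.1 < q.2).card + (M p).card :=
    fun p => (card_lt_pairs (M p)).symm
  have h4 : ∑ p : Fin n × Fin n, ((M p ×ˢ M p).filter fun q : Fin n × Fin n => q.1 < q.2).card
      ≤ (copies !![a, b; a, b] A).card := by
    rw [← card_sigma]
    apply card_le_card_of_injOn (fun x => (![x.2.1, x.2.2], ![x.1.1, x.1.2]))
    · rintro ⟨⟨c1, c2⟩, ⟨r1, r2⟩⟩ hx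
      rw [mem_coe, mem_sigma] at hx
      have hx2 := hx.2
      simp only [mem_filter, mem_product, hM, mem_univ, true_and, pairsRow] at hx2
      obtain ⟨⟨⟨hcc, h11, h12⟩, ⟨_, h21, h22⟩⟩, hrr⟩ := hx2
      rw [mem_coe, mem_copies]
      refine ⟨strictMono_pair hrr, strictMono_pair hcc, ?_⟩
      intro i j
      fin_cases i <;> fin_cases j <;> simp [h11, h12, h21, h22]
    · rintro ⟨⟨c1, c2⟩, ⟨r1, r2⟩⟩ _ ⟨⟨c1', c2'⟩, ⟨r1', r2'⟩⟩ _ h
      simp only [Prod.mk.injEq] at h
      obtain ⟨h1, h2⟩ := h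
      have a1 := congr_fun h1 0
      have a2 := congr_fun h1 1
      have a3 := congr_fun h2 0
      have a4 := congr_fun h2 1
      simp only [Matrix.cons_val_zero, Matrix.cons_val_one] at a1 a2 a3 a4
      subst a1 a2 a3 a4
      rfl
  calc (Ptot a b A) ^ 2 = (∑ p : Fin n × Fin n, (M p).card) ^ 2 := by rw [h1]
    _ ≤ n * n * ∑ p : Fin n × Fin n, (M p).card ^ 2 := h2
    _ = n * n * (2 * ∑ p : Fin n × Fin n,
          ((M p ×ˢ M p).filter fun q : Fin n × Fin n => q.1 < q.2).card
          + ∑ p : Fin n × Fin n, (M p).card) := by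
        rw [sum_congr rfl (fun p _ => h3 p), sum_add_distrib, ← mul_sum]
    _ ≤ n * n * (2 * (copies !![a, b; a, b] A).card + Ptot a b A) := by
        rw [← h1]
        exact Nat.mul_le_mul_left _ (Nat.add_le_add_right (Nat.mul_le_mul_left 2 h4) _)
    _ = n ^ 2 * (2 * (copies !![a, b; a, b] A).card + Ptot a b A) := by ring

theorem diff_self' (A : Matrix (Fin n) (Fin n) Bool) : diff A A = 0 := by
  simp [diff]

theorem diff_le_sq (A B : Matrix (Fin n) (Fin n) Bool) : diff A B ≤ n * n := by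
  unfold diff
  refine le_trans (card_le_univ _) ?_
  simp

theorem eqRows_arith (e x D P N : ℝ) (he : 0 < e) (hx : 0 < x) (hD : e * x ^ 2 ≤ D)
    (hDle : D ≤ x ^ 2) (h1 : D ^ 2 ≤ 4 * x * P) (h2 : P ^ 2 ≤ x ^ 2 * (2 * N + P))
    (hN : 1 ≤ N) : (1 / 4096 : ℝ) * e ^ 8 * x ^ 4 ≤ N := by
  have hx2 : 0 < x ^ 2 := by positivity
  have he1 : e ≤ 1 := by
    by_contra hcon
    push Not at hcon
    nlinarith
  have hD2 : e ^ 2 * x ^ 4 ≤ D ^ 2 := by
    have h0 : 0 ≤ e * x ^ 2 := by positivity
    calc e ^ 2 * x ^ 4 = (e * x ^ 2) ^ 2 := by ring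
      _ ≤ D ^ 2 := pow_le_pow_left₀ h0 hD 2
  have hP : e ^ 2 * x ^ 3 ≤ 4 * P := by
    have h3 : x * (e ^ 2 * x ^ 3) ≤ x * (4 * P) := by
      calc x * (e ^ 2 * x ^ 3) = e ^ 2 * x ^ 4 := by ring
        _ ≤ D ^ 2 := hD2
        _ ≤ 4 * x * P := h1
        _ = x * (4 * P) := by ring
    exact le_of_mul_le_mul_left h3 hx
  have hP0 : 0 ≤ P := by
    have : 0 ≤ e ^ 2 * x ^ 3 := by positivity
    linarith
  have he4 : e ^ 4 ≤ 1 := pow_le_one₀ he.le he1
  have he4' : 0 ≤ e ^ 4 := by positivity
  have hx4 : 0 ≤ x ^ 4 := by positivity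
  by_cases hcase : 2 * x ^ 2 ≤ P
  · have h3 : x ^ 2 * P ≤ P ^ 2 / 2 := by nlinarith
    have h4 : P ^ 2 ≤ 4 * x ^ 2 * N := by nlinarith
    have h5 : (e ^ 2 * x ^ 3) ^ 2 ≤ (4 * P) ^ 2 :=
      pow_le_pow_left₀ (by positivity) hP 2
    have h6 : x ^ 2 * (e ^ 4 * x ^ 4) ≤ x ^ 2 * (64 * N) := by
      calc x ^ 2 * (e ^ 4 * x ^ 4) = (e ^ 2 * x ^ 3) ^ 2 := by ring
        _ ≤ (4 * P) ^ 2 := h5
        _ = 16 * P ^ 2 := by ring
        _ ≤ 16 * (4 * x ^ 2 * N) := by linarith
        _ = x ^ 2 * (64 * N) := by ring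
    have h7 : e ^ 4 * x ^ 4 ≤ 64 * N := le_of_mul_le_mul_left h6 hx2
    have h8 : e ^ 8 * x ^ 4 ≤ e ^ 4 * x ^ 4 := by
      have : e ^ 8 = e ^ 4 * e ^ 4 := by ring
      rw [this]
      have h9 : e ^ 4 * e ^ 4 ≤ e ^ 4 * 1 := mul_le_mul_of_nonneg_left he4 he4'
      nlinarith
    linarith
  · push Not at hcase
    have h3 : e ^ 2 * x ^ 3 < 8 * x ^ 2 := by linarith
    have h4 : x ^ 2 * (e ^ 2 * x) < x ^ 2 * 8 := by
      calc x ^ 2 * (e ^ 2 * x) = e ^ 2 * x ^ 3 := by ring
        _ < 8 * x ^ 2 := h3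
        _ = x ^ 2 * 8 := by ring
    have h5 : e ^ 2 * x < 8 := lt_of_mul_lt_mul_left h4 hx2.le
    have h6 : 0 ≤ e ^ 2 * x := by positivity
    have h7 : (e ^ 2 * x) ^ 4 ≤ 8 ^ 4 := pow_le_pow_left₀ h6 h5.le 4
    have h8 : e ^ 8 * x ^ 4 = (e ^ 2 * x) ^ 4 := by ring
    have h9 : e ^ 8 * x ^ 4 ≤ 4096 := by
      rw [h8]
      calc (e ^ 2 * x) ^ 4 ≤ 8 ^ 4 := h7
        _ = 4096 := by norm_num
    linarith

/-- Polynomial removal bound for the `2 × 2` patterns with two equal rows. -/
theorem polyRemoval_eqRows (a b : Bool) : PolyRemoval !![a, b; a, b] (1 / 4096) 8 := by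
  intro n A ε hε hfar
  rcases Nat.eq_zero_or_pos n with hn | hn
  · subst hn
    simp
  have hx : (0 : ℝ) < (n : ℝ) := by exact_mod_cast hn
  have hD := hfar (fixRows a b A) (copies_fixRows a b A)
  have hDle : (diff A (fixRows a b A) : ℝ) ≤ (n : ℝ) ^ 2 := by
    have h := diff_le_sq A (fixRows a b A)
    calc (diff A (fixRows a b A) : ℝ) ≤ ((n * n : ℕ) : ℝ) := by exact_mod_cast h
      _ = (n : ℝ) ^ 2 := by push_cast; ring
  have h1 := diff_fixRows_sq a b A
  have h2 := Ptot_sq_le a b A
  have hN1 : 1 ≤ (copies !![a, b; a, b] A).card := by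
    by_contra h
    have h0 : copies !![a, b; a, b] A = ∅ := by
      rw [← card_eq_zero]
      omega
    have h3 := hfar A h0
    rw [diff_self'] at h3
    have hx2 : 0 < (n : ℝ) ^ 2 := by positivity
    have : 0 < ε * (n : ℝ) ^ 2 := by positivity
    simp only [Nat.cast_zero] at h3
    linarith
  have key := eqRows_arith ε n (diff A (fixRows a b A)) (Ptot a b A)
    ((copies !![a, b; a, b] A).card) hε hx hD hDle (by exact_mod_cast h1)
    (by exact_mod_cast h2) (by exact_mod_cast hN1)
  simpa using key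

end Vale.Agent.Helper20.OrdMat
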