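import Mathlib
import Vale.Agent.Helper20.P037Avg

/-!
Averaging lemmas over sample families `f : Fin s → Fin n`, in the form requested by helper8
for the other `2 × 2` pattern class of P037.
-/

namespace Vale.Agent.Helper20.P037

open Finset

/-- Two-coordinate marginal over all functions `Fin s → Fin n`. -/
theorem sum_fun_pair (s n : ℕ) (g : Fin n → Fin n → ℕ) (i j : Fin s) (hij : i ≠ j) :
    n ^ 2 * ∑ f : Fin s → Fin n, g (f i) (f j) = n ^ s * ∑ q, ∑ q2, g q q2 := by
  have h := sum_coord2 (n := n) i j (Ne.symm hij) g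
  rw [Fintype.card_fin] at h
  exact h

/-- One-coordinate marginal over all functions `Fin s → Fin n`. -/
theorem sum_fun_single (s n : ℕ) (g : Fin n → ℕ) (i : Fin s) :
    n * ∑ f : Fin s → Fin n, g (f i) = n ^ s * ∑ q, g q := by
  have h := sum_coord (n := n) i g
  rw [Fintype.card_fin] at h
  exact h

/-- The expected number of elements of `J` not preceded by a sampled element of `J`. -/
theorem sum_unserved (s n : ℕ) (J : Finset (Fin n)) :
    (s + 1) * ∑ f : Fin s → Fin n, (J.filter fun r => ∀ i, ¬ (f i < r ∧ f i ∈ J)).card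
      ≤ n ^ (s + 1) + (s + 1) * n ^ s := by
  classical
  set φ : Fin n → ℕ := fun r => (univ.filter fun q : Fin n => ¬ (q < r ∧ q ∈ J)).card with hφ
  have h1 : ∑ f : Fin s → Fin n, (J.filter fun r => ∀ i, ¬ (f i < r ∧ f i ∈ J)).card
      = ∑ r ∈ J, (univ.filter fun f : Fin s → Fin n => ∀ i, ¬ (f i < r ∧ f i ∈ J)).card := by
    simp only [card_filter]
    exact sum_comm
  have h2 : ∀ r : Fin n, (univ.filter fun f : Fin s → Fin n => ∀ i, ¬ (f i < r ∧ f i ∈ J)).card
      = (φ r) ^ s := by
    intro r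
    rw [← Fintype.card_piFinset_const]
    congr 1
    ext f
    simp only [mem_filter, mem_univ, true_and, Fintype.mem_piFinset]
  have hle : ∀ r : Fin n, φ r ≤ n := by
    intro r
    have h := card_le_univ (univ.filter fun q : Fin n => ¬ (q < r ∧ q ∈ J))
    rw [Fintype.card_fin] at h
    exact h
  have hanti : ∀ r ∈ J, ∀ r' ∈ J, r < r' → φ r' < φ r := by
    intro r hr r' _ hlt'
    apply card_lt_card
    rw [ssubset_iff_of_subset]
    · refine ⟨r, ?_, ?_⟩
      · simp only [mem_filter, mem_univ, true_and]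
        rintro ⟨h, _⟩
        exact lt_irrefl _ h
      · simp only [mem_filter, mem_univ, true_and, not_not]
        exact ⟨hlt', hr⟩
    · intro q hq
      simp only [mem_filter, mem_univ, true_and] at hq ⊢
      rintro ⟨h1, h2⟩
      exact hq ⟨lt_trans h1 hlt', h2⟩
  have hinj : ∀ x ∈ J, ∀ y ∈ J, φ x = φ y → x = y := by
    intro r hr r' hr' heq
    by_contra hne
    rcases lt_or_gt_of_ne hne with h | h
    · have := hanti r hr r' hr' h
      omega
    · have := hanti r' hr' r hr h
      omega
  have h3 : ∑ r ∈ J, (φ r) ^ s ≤ ∑ m ∈ range (n + 1), m ^ s := by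
    calc ∑ r ∈ J, (φ r) ^ s = ∑ m ∈ J.image φ, m ^ s :=
          (sum_image (f := fun m => m ^ s) hinj).symm
      _ ≤ ∑ m ∈ range (n + 1), m ^ s := by
          apply sum_le_sum_of_subset
          intro m hm
          rw [mem_image] at hm
          obtain ⟨r, _, rfl⟩ := hm
          exact mem_range.2 (Nat.lt_succ_of_le (hle r))
  rw [h1, sum_congr rfl (fun r _ => h2 r)]
  calc (s + 1) * ∑ r ∈ J, (φ r) ^ s ≤ (s + 1) * ∑ m ∈ range (n + 1), m ^ s :=
        Nat.mul_le_mul_left _ h3
    _ = (s + 1) * ∑ m ∈ range n, m ^ s + (s + 1) * n ^ s := by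
        rw [sum_range_succ, mul_add]
    _ ≤ n ^ (s + 1) + (s + 1) * n ^ s := Nat.add_le_add_right (pow_sum_le n s) _

end Vale.Agent.Helper20.P037
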