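import Mathlib

/-!
Ordered copies of a binary pattern in a binary matrix, the polynomial removal property, and its
invariance under complement, row reversal, column reversal and transposition (helper for P037).
-/

namespace Vale.Agent.Helper20.OrdMat

open Finset

/-- The set of ordered copies of the `k × k` pattern `H` in the `n × n` binary matrix `A`:
pairs (row map, column map) of strictly increasing index maps along which `A` agrees
with `H`, zeros as well as ones. -/
noncomputable def copies {k n : ℕ} (H : Matrix (Fin k) (Fin k) Bool)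
    (A : Matrix (Fin n) (Fin n) Bool) : Finset ((Fin k → Fin n) × (Fin k → Fin n)) :=
  open Classical in
  univ.filter fun p => StrictMono p.1 ∧ StrictMono p.2 ∧ ∀ i j, A (p.1 i) (p.2 j) = H i j

/-- The number of entries in which the two `n × n` matrices differ. -/
def diff {n : ℕ} (A B : Matrix (Fin n) (Fin n) Bool) : ℕ :=
  (univ.filter fun p : Fin n × Fin n => A p.1 p.2 ≠ B p.1 p.2).card

/-- `H` has a polynomial removal bound with constant `c` and exponent `C`. -/
def PolyRemoval {k : ℕ} (H : Matrix (Fin k) (Fin k) Bool) (c : ℝ) (C : ℕ) : Prop :=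
  ∀ (n : ℕ) (A : Matrix (Fin n) (Fin n) Bool) (ε : ℝ), 0 < ε →
    (∀ B : Matrix (Fin n) (Fin n) Bool, copies H B = ∅ → ε * (n : ℝ) ^ 2 ≤ (diff A B : ℝ)) →
    c * ε ^ C * (n : ℝ) ^ (2 * k) ≤ ((copies H A).card : ℝ)

theorem mem_copies {k n : ℕ} {H : Matrix (Fin k) (Fin k) Bool}
    {A : Matrix (Fin n) (Fin n) Bool} {p : (Fin k → Fin n) × (Fin k → Fin n)} :
    p ∈ copies H A ↔ StrictMono p.1 ∧ StrictMono p.2 ∧ ∀ i j, A (p.1 i) (p.2 j) = H i j := by
  classical
  simp [copies]

/-- Entrywise complement. -/
def compl {m : ℕ} (M : Matrix (Fin m) (Fin m) Bool) : Matrix (Fin m) (Fin m) Bool :=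
  fun i j => !(M i j)

/-- Reversal of the row order. -/
def revRows {m : ℕ} (M : Matrix (Fin m) (Fin m) Bool) : Matrix (Fin m) (Fin m) Bool :=
  fun i j => M (Fin.rev i) j

/-- Reversal of the column order. -/
def revCols {m : ℕ} (M : Matrix (Fin m) (Fin m) Bool) : Matrix (Fin m) (Fin m) Bool :=
  fun i j => M i (Fin.rev j)

/-- Transposition. -/
def transp {m : ℕ} (M : Matrix (Fin m) (Fin m) Bool) : Matrix (Fin m) (Fin m) Bool :=
  fun i j => M j i

theorem compl_compl {m : ℕ} (M : Matrix (Fin m) (Fin m) Bool) : compl (compl M) = M := by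
  funext i j
  simp [compl]

theorem revRows_revRows {m : ℕ} (M : Matrix (Fin m) (Fin m) Bool) :
    revRows (revRows M) = M := by
  funext i j
  simp [revRows]

theorem revCols_revCols {m : ℕ} (M : Matrix (Fin m) (Fin m) Bool) :
    revCols (revCols M) = M := by
  funext i j
  simp [revCols]

theorem transp_transp {m : ℕ} (M : Matrix (Fin m) (Fin m) Bool) : transp (transp M) = M := rfl

theorem diff_compl {n : ℕ} (A B : Matrix (Fin n) (Fin n) Bool) :
    diff (compl A) (compl B) = diff A B := by
  unfold diff
  congr 1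
  ext p
  simp [compl]

theorem diff_revRows {n : ℕ} (A B : Matrix (Fin n) (Fin n) Bool) :
    diff (revRows A) (revRows B) = diff A B := by
  unfold diff
  apply card_equiv (Equiv.prodCongr Fin.revPerm (Equiv.refl _))
  intro p
  rw [mem_filter, mem_filter]
  simp [revRows]

theorem diff_revCols {n : ℕ} (A B : Matrix (Fin n) (Fin n) Bool) :
    diff (revCols A) (revCols B) = diff A B := by
  unfold diff
  apply card_equiv (Equiv.prodCongr (Equiv.refl _) Fin.revPerm)
  intro p
  rw [mem_filter, mem_filter]
  simp [revCols]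

theorem diff_transp {n : ℕ} (A B : Matrix (Fin n) (Fin n) Bool) :
    diff (transp A) (transp B) = diff A B := by
  unfold diff
  apply card_equiv (Equiv.prodComm _ _)
  intro p
  rw [mem_filter, mem_filter]
  simp [transp]

theorem copies_compl {k n : ℕ} (H : Matrix (Fin k) (Fin k) Bool)
    (A : Matrix (Fin n) (Fin n) Bool) : copies (compl H) (compl A) = copies H A := by
  ext p
  simp only [mem_copies, compl]
  constructor
  · rintro ⟨h1, h2, h3⟩
    refine ⟨h1, h2, fun i j => ?_⟩
    have := h3 i j
    simpa using this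
  · rintro ⟨h1, h2, h3⟩
    refine ⟨h1, h2, fun i j => ?_⟩
    rw [h3 i j]

theorem card_copies_compl {k n : ℕ} (H : Matrix (Fin k) (Fin k) Bool)
    (A : Matrix (Fin n) (Fin n) Bool) :
    (copies H A).card = (copies (compl H) (compl A)).card := by
  rw [copies_compl]

theorem strictMono_rev_rev {k n : ℕ} {ρ : Fin k → Fin n} (hρ : StrictMono ρ) :
    StrictMono fun i => Fin.rev (ρ (Fin.rev i)) := by
  intro i j hij
  exact Fin.rev_lt_rev.2 (hρ (Fin.rev_lt_rev.2 hij))

theorem card_copies_revRows_le {k n : ℕ} (H : Matrix (Fin k) (Fin k) Bool)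
    (A : Matrix (Fin n) (Fin n) Bool) :
    (copies H A).card ≤ (copies (revRows H) (revRows A)).card := by
  apply card_le_card_of_injOn (fun p => (fun i => Fin.rev (p.1 (Fin.rev i)), p.2))
  · intro p hp
    rw [mem_coe, mem_copies] at hp ⊢
    obtain ⟨h1, h2, h3⟩ := hp
    refine ⟨strictMono_rev_rev h1, h2, fun i j => ?_⟩
    simp only [revRows, Fin.rev_rev]
    exact h3 _ _
  · intro p _ p' _ h
    simp only [Prod.mk.injEq] at h
    obtain ⟨h1, h2⟩ := h
    apply Prod.ext _ h2
    funext i
    have := congr_fun h1 (Fin.rev i)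
    simpa using this

theorem card_copies_revRows {k n : ℕ} (H : Matrix (Fin k) (Fin k) Bool)
    (A : Matrix (Fin n) (Fin n) Bool) :
    (copies H A).card = (copies (revRows H) (revRows A)).card := by
  apply le_antisymm (card_copies_revRows_le H A)
  have h := card_copies_revRows_le (revRows H) (revRows A)
  rwa [revRows_revRows, revRows_revRows] at h

theorem card_copies_revCols_le {k n : ℕ} (H : Matrix (Fin k) (Fin k) Bool)
    (A : Matrix (Fin n) (Fin n) Bool) :
    (copies H A).card ≤ (copies (revCols H) (revCols A)).card := by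
  apply card_le_card_of_injOn (fun p => (p.1, fun i => Fin.rev (p.2 (Fin.rev i))))
  · intro p hp
    rw [mem_coe, mem_copies] at hp ⊢
    obtain ⟨h1, h2, h3⟩ := hp
    refine ⟨h1, strictMono_rev_rev h2, fun i j => ?_⟩
    simp only [revCols, Fin.rev_rev]
    exact h3 _ _
  · intro p _ p' _ h
    simp only [Prod.mk.injEq] at h
    obtain ⟨h1, h2⟩ := h
    apply Prod.ext h1
    funext i
    have := congr_fun h2 (Fin.rev i)
    simpa using this

theorem card_copies_revCols {k n : ℕ} (H : Matrix (Fin k) (Fin k) Bool)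
    (A : Matrix (Fin n) (Fin n) Bool) :
    (copies H A).card = (copies (revCols H) (revCols A)).card := by
  apply le_antisymm (card_copies_revCols_le H A)
  have h := card_copies_revCols_le (revCols H) (revCols A)
  rwa [revCols_revCols, revCols_revCols] at h

theorem card_copies_transp_le {k n : ℕ} (H : Matrix (Fin k) (Fin k) Bool)
    (A : Matrix (Fin n) (Fin n) Bool) :
    (copies H A).card ≤ (copies (transp H) (transp A)).card := by
  apply card_le_card_of_injOn (fun p => (p.2, p.1))
  · intro p hp
    rw [mem_coe, mem_copies] at hp ⊢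
    obtain ⟨h1, h2, h3⟩ := hp
    exact ⟨h2, h1, fun i j => h3 j i⟩
  · intro p _ p' _ h
    simp only [Prod.mk.injEq] at h
    exact Prod.ext h.2 h.1

theorem card_copies_transp {k n : ℕ} (H : Matrix (Fin k) (Fin k) Bool)
    (A : Matrix (Fin n) (Fin n) Bool) :
    (copies H A).card = (copies (transp H) (transp A)).card := by
  apply le_antisymm (card_copies_transp_le H A)
  have h := card_copies_transp_le (transp H) (transp A)
  rwa [transp_transp, transp_transp] at h

/-- Transfer of a polynomial removal bound along a size-uniform involutive symmetry. -/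
theorem PolyRemoval.transfer {k : ℕ} {H : Matrix (Fin k) (Fin k) Bool} {c : ℝ} {C : ℕ}
    (σ : ∀ m : ℕ, Matrix (Fin m) (Fin m) Bool → Matrix (Fin m) (Fin m) Bool)
    (hinv : ∀ m M, σ m (σ m M) = M)
    (hdiff : ∀ n A B, diff (σ n A) (σ n B) = diff A B)
    (hcop : ∀ (n : ℕ) (H' : Matrix (Fin k) (Fin k) Bool) (A : Matrix (Fin n) (Fin n) Bool),
      (copies H' A).card = (copies (σ k H') (σ n A)).card)
    (h : PolyRemoval H c C) : PolyRemoval (σ k H) c C := by
  intro n A ε hε hfar
  have h1 := h n (σ n A) ε hε (by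
    intro B hB
    have hB' : copies (σ k H) (σ n B) = ∅ := by
      rw [← card_eq_zero, ← hcop, hB, card_empty]
    have h2 := hfar (σ n B) hB'
    rwa [← hdiff n A (σ n B), hinv] at h2)
  rw [hcop n H (σ n A), hinv] at h1
  exact h1

theorem PolyRemoval.compl {k : ℕ} {H : Matrix (Fin k) (Fin k) Bool} {c : ℝ} {C : ℕ}
    (h : PolyRemoval H c C) : PolyRemoval (compl H) c C :=
  PolyRemoval.transfer (fun _ => OrdMat.compl) (fun _ => compl_compl) (fun _ => diff_compl)
    (fun _ => card_copies_compl) h

theorem PolyRemoval.revRows {k : ℕ} {H : Matrix (Fin k) (Fin k) Bool} {c : ℝ} {C : ℕ}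
    (h : PolyRemoval H c C) : PolyRemoval (revRows H) c C :=
  PolyRemoval.transfer (fun _ => OrdMat.revRows) (fun _ => revRows_revRows)
    (fun _ => diff_revRows) (fun _ => card_copies_revRows) h

theorem PolyRemoval.revCols {k : ℕ} {H : Matrix (Fin k) (Fin k) Bool} {c : ℝ} {C : ℕ}
    (h : PolyRemoval H c C) : PolyRemoval (revCols H) c C :=
  PolyRemoval.transfer (fun _ => OrdMat.revCols) (fun _ => revCols_revCols)
    (fun _ => diff_revCols) (fun _ => card_copies_revCols) h

theorem PolyRemoval.transp {k : ℕ} {H : Matrix (Fin k) (Fin k) Bool} {c : ℝ} {C : ℕ}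
    (h : PolyRemoval H c C) : PolyRemoval (transp H) c C :=
  PolyRemoval.transfer (fun _ => OrdMat.transp) (fun _ => transp_transp)
    (fun _ => diff_transp) (fun _ => card_copies_transp) h

end Vale.Agent.Helper20.OrdMat
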