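import Mathlib
import Vale.Agent.Helper20.P037Rows

/-!
Assembly of the polynomial removal bound for all `2 × 2` binary patterns from the bounds for
the identity pattern, the equal-rows patterns and the pattern with rows `(1,1)`, `(1,0)`
(helper for P037).
-/

namespace Vale.Agent.Helper20.OrdMat

open Finset

/-- The constant matrix. -/
def constMat (n : ℕ) (v : Bool) : Matrix (Fin n) (Fin n) Bool := fun _ _ => v

theorem copies_constMat {k n : ℕ} (hk : 0 < k) (H : Matrix (Fin k) (Fin k) Bool) :
    copies H (constMat n (!(H ⟨0, hk⟩ ⟨0, hk⟩))) = ∅ := by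
  rw [eq_empty_iff_forall_notMem]
  intro p hp
  rw [mem_copies] at hp
  have h0 := hp.2.2 ⟨0, hk⟩ ⟨0, hk⟩
  simp [constMat] at h0

/-- A polynomial removal bound can be weakened: smaller constant, larger exponent. -/
theorem PolyRemoval.weaken {k : ℕ} (hk : 0 < k) {H : Matrix (Fin k) (Fin k) Bool}
    {c c' : ℝ} {C C' : ℕ} (hc' : 0 ≤ c') (hcc : c' ≤ c) (hCC : C ≤ C')
    (h : PolyRemoval H c C) : PolyRemoval H c' C' := by
  intro n A ε hε hfar
  rcases Nat.eq_zero_or_pos n with hn | hn
  · subst hn
    have h2k : 2 * k ≠ 0 := by omega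
    simp [h2k]
  have hx : (0 : ℝ) < (n : ℝ) := by exact_mod_cast hn
  have he1 : ε ≤ 1 := by
    have hz := hfar _ (copies_constMat (n := n) hk H)
    have hd := diff_le_sq A (constMat n (!(H ⟨0, hk⟩ ⟨0, hk⟩)))
    have hd' : (diff A (constMat n (!(H ⟨0, hk⟩ ⟨0, hk⟩))) : ℝ) ≤ (n : ℝ) ^ 2 := by
      calc (diff A (constMat n (!(H ⟨0, hk⟩ ⟨0, hk⟩))) : ℝ)
          ≤ ((n * n : ℕ) : ℝ) := by exact_mod_cast hd
        _ = (n : ℝ) ^ 2 := by push_cast; ring
    have hx2 : 0 < (n : ℝ) ^ 2 := by positivity
    by_contra hcon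
    push Not at hcon
    nlinarith
  have h1 := h n A ε hε hfar
  have h2 : ε ^ C' ≤ ε ^ C := pow_le_pow_of_le_one hε.le he1 hCC
  have h3 : c' * ε ^ C' ≤ c * ε ^ C :=
    mul_le_mul hcc h2 (by positivity) (le_trans hc' hcc)
  calc c' * ε ^ C' * (n : ℝ) ^ (2 * k) ≤ c * ε ^ C * (n : ℝ) ^ (2 * k) :=
        mul_le_mul_of_nonneg_right h3 (by positivity)
    _ ≤ ((copies H A).card : ℝ) := h1

theorem pat_eq (a b c d : Bool) (M : Matrix (Fin 2) (Fin 2) Bool)
    (h00 : M 0 0 = a) (h01 : M 0 1 = b) (h10 : M 1 0 = c) (h11 : M 1 1 = d) :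
    !![a, b; c, d] = M := by
  symm
  funext i j
  fin_cases i <;> fin_cases j
  · simpa using h00
  · simpa using h01
  · simpa using h10
  · simpa using h11

/-- The polynomial removal bound for all `2 × 2` patterns, given the bound for the pattern
with rows `(1,1)`, `(1,0)`. -/
theorem all_two_by_two {cL : ℝ} {CL : ℕ}
    (hL : PolyRemoval !![true, true; true, false] cL CL) {c : ℝ} {C : ℕ}
    (hc0 : 0 ≤ c) (hcL : c ≤ cL) (hcI : c ≤ 1 / 1690000) (hCL : CL ≤ C) (hCI : 12 ≤ C) :
    ∀ H : Matrix (Fin 2) (Fin 2) Bool, PolyRemoval H c C := by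
  have h2 : (0 : ℕ) < 2 := by norm_num
  have hcR : c ≤ 1 / 4096 := le_trans hcI (by norm_num)
  have hCR : 8 ≤ C := le_trans (by norm_num) hCI
  have hI : PolyRemoval !![true, false; false, true] c C :=
    polyRemoval_ident.weaken h2 hc0 hcI hCI
  have hR : ∀ a b : Bool, PolyRemoval !![a, b; a, b] c C :=
    fun a b => (polyRemoval_eqRows a b).weaken h2 hc0 hcR hCR
  have hL' : PolyRemoval !![true, true; true, false] c C := hL.weaken h2 hc0 hcL hCL
  intro H
  rw [Matrix.eta_fin_two H]
  rcases h00 : H 0 0 with _ | _ <;> rcases h01 : H 0 1 with _ | _ <;>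
    rcases h10 : H 1 0 with _ | _ <;> rcases h11 : H 1 1 with _ | _
  · -- 0000
    exact hR false false
  · -- 0001
    have e : (!![false, false; false, true] : Matrix (Fin 2) (Fin 2) Bool)
        = compl !![true, true; true, false] := pat_eq _ _ _ _ _ rfl rfl rfl rfl
    rw [e]
    exact hL'.compl
  · -- 0010
    have e : (!![false, false; true, false] : Matrix (Fin 2) (Fin 2) Bool)
        = compl (revCols !![true, true; true, false]) := pat_eq _ _ _ _ _ rfl rfl rfl rfl
    rw [e]
    exact hL'.revCols.compl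
  · -- 0011
    have e : (!![false, false; true, true] : Matrix (Fin 2) (Fin 2) Bool)
        = transp !![false, true; false, true] := pat_eq _ _ _ _ _ rfl rfl rfl rfl
    rw [e]
    exact (hR false true).transp
  · -- 0100
    have e : (!![false, true; false, false] : Matrix (Fin 2) (Fin 2) Bool)
        = compl (revRows !![true, true; true, false]) := pat_eq _ _ _ _ _ rfl rfl rfl rfl
    rw [e]
    exact hL'.revRows.compl
  · -- 0101
    exact hR false true
  · -- 0110
    have e : (!![false, true; true, false] : Matrix (Fin 2) (Fin 2) Bool)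
        = revRows !![true, false; false, true] := pat_eq _ _ _ _ _ rfl rfl rfl rfl
    rw [e]
    exact hI.revRows
  · -- 0111
    have e : (!![false, true; true, true] : Matrix (Fin 2) (Fin 2) Bool)
        = revRows (revCols !![true, true; true, false]) := pat_eq _ _ _ _ _ rfl rfl rfl rfl
    rw [e]
    exact hL'.revCols.revRows
  · -- 1000
    have e : (!![true, false; false, false] : Matrix (Fin 2) (Fin 2) Bool)
        = compl (revRows (revCols !![true, true; true, false])) :=
      pat_eq _ _ _ _ _ rfl rfl rfl rfl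
    rw [e]
    exact hL'.revCols.revRows.compl
  · -- 1001
    exact hI
  · -- 1010
    exact hR true false
  · -- 1011
    have e : (!![true, false; true, true] : Matrix (Fin 2) (Fin 2) Bool)
        = revRows !![true, true; true, false] := pat_eq _ _ _ _ _ rfl rfl rfl rfl
    rw [e]
    exact hL'.revRows
  · -- 1100
    have e : (!![true, true; false, false] : Matrix (Fin 2) (Fin 2) Bool)
        = transp !![true, false; true, false] := pat_eq _ _ _ _ _ rfl rfl rfl rfl
    rw [e]
    exact (hR true false).transp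
  · -- 1101
    have e : (!![true, true; false, true] : Matrix (Fin 2) (Fin 2) Bool)
        = revCols !![true, true; true, false] := pat_eq _ _ _ _ _ rfl rfl rfl rfl
    rw [e]
    exact hL'.revCols
  · -- 1110
    exact hL'
  · -- 1111
    exact hR true true

end Vale.Agent.Helper20.OrdMat
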