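import Mathlib

/-!
# Helper lemmas for P134 (De Giorgi's conjecture): Laplacian chain rule, an ODE lemma and
eikonal rigidity

* `snd_deriv_comp`, `laplacian_comp`: chain rule for second derivatives and for the Laplacian
  of `g ∘ s` with `s : E → ℝ`, `g : ℝ → ℝ`.
* `laplacian_graph`: the Laplacian of `y ↦ g(⟨e, y⟩ - h(y))` when `h` is invariant along `e`.
* `ode_contra`: a strictly increasing `C^2` function cannot satisfy two different equations
  `(1 + P_i) g'' - Q_i g' = g^3 - g` with `P_1 ≠ P_2`.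
* `eikonal_affine`: an entire `C^2` function whose gradient has constant length is affine.
-/

namespace Vale.Agent.Helper20.P134

open InnerProductSpace Laplacian Set

variable {E : Type*} [NormedAddCommGroup E] [InnerProductSpace ℝ E] [FiniteDimensional ℝ E]

omit [FiniteDimensional ℝ E] in
/-- Chain rule for the second derivative of `g ∘ s` along a direction `v`. -/
theorem snd_deriv_comp (s : E → ℝ) (g : ℝ → ℝ) (hs : ContDiff ℝ 2 s) (hg : ContDiff ℝ 2 g)
    (x v : E) :
    iteratedFDeriv ℝ 2 (fun y => g (s y)) x ![v, v]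
      = deriv (deriv g) (s x) * (fderiv ℝ s x v) ^ 2
        + deriv g (s x) * iteratedFDeriv ℝ 2 s x ![v, v] := by
  have hgd : Differentiable ℝ g := hg.differentiable (by norm_num)
  have hsd : Differentiable ℝ s := hs.differentiable (by norm_num)
  have hg1 : Differentiable ℝ (deriv g) := by
    have : ContDiff ℝ 1 (deriv g) := by
      have h2 : ContDiff ℝ (1 + 1) g := by rw [one_add_one_eq_two]; exact hg
      exact (contDiff_succ_iff_deriv.mp h2).2.2
    exact this.differentiable (by norm_num)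
  have hs1 : Differentiable ℝ (fderiv ℝ s) := by
    have : ContDiff ℝ 1 (fderiv ℝ s) := by
      have h2 : ContDiff ℝ (1 + 1) s := by rw [one_add_one_eq_two]; exact hs
      exact (contDiff_succ_iff_fderiv.mp h2).2.2
    exact this.differentiable (by norm_num)
  have h1 : fderiv ℝ (fun y => g (s y)) = fun y => deriv g (s y) • fderiv ℝ s y := by
    funext y
    exact ((hgd (s y)).hasDerivAt.comp_hasFDerivAt y (hsd y).hasFDerivAt).fderiv
  have hc : ∀ y, HasFDerivAt (fun y => deriv g (s y)) (deriv (deriv g) (s y) • fderiv ℝ s y) y :=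
    fun y => (hg1 (s y)).hasDerivAt.comp_hasFDerivAt y (hsd y).hasFDerivAt
  rw [iteratedFDeriv_two_apply, iteratedFDeriv_two_apply, h1]
  rw [fderiv_fun_smul (hc x).differentiableAt (hs1 x), (hc x).fderiv]
  simp
  ring

/-- Chain rule for the Laplacian of `g ∘ s`. -/
theorem laplacian_comp (s : E → ℝ) (g : ℝ → ℝ) (hs : ContDiff ℝ 2 s) (hg : ContDiff ℝ 2 g)
    (x : E) :
    Δ (fun y => g (s y)) x
      = deriv (deriv g) (s x) * ‖fderiv ℝ s x‖ ^ 2 + deriv g (s x) * Δ s x := by
  rw [laplacian_eq_iteratedFDeriv_stdOrthonormalBasis,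
    laplacian_eq_iteratedFDeriv_stdOrthonormalBasis,
    OrthonormalBasis.norm_dual (stdOrthonormalBasis ℝ E)]
  simp only [snd_deriv_comp s g hs hg, Finset.sum_add_distrib, Finset.mul_sum]

/-- The Laplacian commutes with translations. -/
theorem laplacian_comp_add_right (u : E → ℝ) (a x : E) :
    Δ (fun z => u (z + a)) x = Δ u (x + a) := by
  simp only [laplacian_eq_iteratedFDeriv_stdOrthonormalBasis]
  simp [iteratedFDeriv_comp_add_right]

/-- The Laplacian of a linear functional vanishes. -/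
theorem laplacian_inner (e x : E) : Δ (fun y : E => inner ℝ e y) x = 0 := by
  have h1 : (fun y : E => inner ℝ e y) = ⇑(innerSL ℝ e) := rfl
  have h2 : fderiv ℝ (⇑(innerSL ℝ e)) = fun _ => innerSL ℝ e := by
    funext y
    exact (innerSL ℝ e).fderiv
  rw [laplacian_eq_iteratedFDeriv_stdOrthonormalBasis, h1]
  simp only [iteratedFDeriv_two_apply, h2]
  simp

/-- The Laplacian of `y ↦ g(⟨e, y⟩ - h(y))` for a unit vector `e` and `h` invariant under
translations along `e`. -/
theorem laplacian_graph (e : E) (he : ‖e‖ = 1) (g : ℝ → ℝ) (h : E → ℝ) (hg : ContDiff ℝ 2 g)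
    (hh : ContDiff ℝ 2 h) (hinv : ∀ (x : E) (t : ℝ), h (x + t • e) = h x) (x : E) :
    Δ (fun y => g (inner ℝ e y - h y)) x
      = deriv (deriv g) (inner ℝ e x - h x) * (1 + ‖fderiv ℝ h x‖ ^ 2)
        - deriv g (inner ℝ e x - h x) * Δ h x := by
  have hhd : Differentiable ℝ h := hh.differentiable (by norm_num)
  have hlin : ContDiff ℝ 2 (fun y : E => inner ℝ e y) := contDiff_const.inner ℝ contDiff_id
  have hs : ContDiff ℝ 2 (fun y : E => inner ℝ e y - h y) := hlin.sub hh
  rw [laplacian_comp (fun y : E => inner ℝ e y - h y) g hs hg x]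
  -- derivative of `h` along `e` vanishes
  have hde : fderiv ℝ h x e = 0 := by
    have hγ : HasDerivAt (fun t : ℝ => x + t • e) e 0 := by
      have := ((hasDerivAt_id (0 : ℝ)).smul_const e).const_add x
      simpa using this
    have h1 := (hhd (x + (0 : ℝ) • e)).hasFDerivAt.comp_hasDerivAt (0 : ℝ) hγ
    have h2 : (h ∘ fun t : ℝ => x + t • e) = fun _ => h x := by
      funext t
      exact hinv x t
    rw [h2] at h1
    have h3 := h1.unique (hasDerivAt_const (0 : ℝ) (h x))
    simpa using h3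
  have hfd : fderiv ℝ (fun y : E => inner ℝ e y - h y) x = innerSL ℝ e - fderiv ℝ h x := by
    have h1 : HasFDerivAt (fun y : E => inner ℝ e y) (innerSL ℝ e) x := (innerSL ℝ e).hasFDerivAt
    exact (h1.sub (hhd x).hasFDerivAt).fderiv
  have hnorm : ‖fderiv ℝ (fun y : E => inner ℝ e y - h y) x‖ ^ 2 = 1 + ‖fderiv ℝ h x‖ ^ 2 := by
    rw [hfd, OrthonormalBasis.norm_dual (stdOrthonormalBasis ℝ E),
      OrthonormalBasis.norm_dual (stdOrthonormalBasis ℝ E)]
    have hexp : ∀ i, ((innerSL ℝ e - fderiv ℝ h x) (stdOrthonormalBasis ℝ E i)) ^ 2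
        = inner ℝ e (stdOrthonormalBasis ℝ E i) ^ 2
          - 2 * fderiv ℝ h x (inner ℝ (stdOrthonormalBasis ℝ E i) e • stdOrthonormalBasis ℝ E i)
          + (fderiv ℝ h x (stdOrthonormalBasis ℝ E i)) ^ 2 := by
      intro i
      simp only [sub_apply, innerSL_apply_apply, map_smul, smul_eq_mul]
      rw [real_inner_comm e]
      ring
    simp only [hexp, Finset.sum_add_distrib, Finset.sum_sub_distrib, ← Finset.mul_sum, ← map_sum]
    rw [OrthonormalBasis.sum_repr', hde, OrthonormalBasis.sum_sq_inner_left, he]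
    ring
  have hlap : Δ (fun y : E => inner ℝ e y - h y) x = - Δ h x := by
    have := ContDiffAt.laplacian_sub (f₁ := fun y : E => inner ℝ e y) (f₂ := h)
      hlin.contDiffAt hh.contDiffAt (x := x)
    have h0 : ((fun y : E => inner ℝ e y) - h) = fun y : E => inner ℝ e y - h y := rfl
    rw [h0, laplacian_inner] at this
    rw [this]; ring
  rw [hnorm, hlap]
  ring

/-- A `C^2` function with positive derivative cannot satisfy two equations
`(1 + P_i) g'' - Q_i g' = g^3 - g` with `P_1 ≠ P_2`. -/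
theorem ode_contra (g : ℝ → ℝ) (hg : ContDiff ℝ 2 g) (hpos : ∀ σ, 0 < deriv g σ)
    (P1 P2 Q1 Q2 : ℝ) (hP : P1 ≠ P2)
    (h1 : ∀ σ, deriv (deriv g) σ * (1 + P1) - deriv g σ * Q1 = g σ ^ 3 - g σ)
    (h2 : ∀ σ, deriv (deriv g) σ * (1 + P2) - deriv g σ * Q2 = g σ ^ 3 - g σ) : False := by
  have hgd : Differentiable ℝ g := hg.differentiable (by norm_num)
  have hg1 : Differentiable ℝ (deriv g) := by
    have : ContDiff ℝ 1 (deriv g) := by
      have h2 : ContDiff ℝ (1 + 1) g := by rw [one_add_one_eq_two]; exact hg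
      exact (contDiff_succ_iff_deriv.mp h2).2.2
    exact this.differentiable (by norm_num)
  have hPne : P1 - P2 ≠ 0 := sub_ne_zero.mpr hP
  set lam : ℝ := (Q1 - Q2) / (P1 - P2) with hlam
  have hsec : ∀ σ, deriv (deriv g) σ = lam * deriv g σ := by
    intro σ
    have e1 := h1 σ
    have e2 := h2 σ
    rw [hlam]
    field_simp
    linear_combination e1 - e2
  set mu : ℝ := (1 + P1) * lam - Q1 with hmu
  have hfirst : ∀ σ, mu * deriv g σ = g σ ^ 3 - g σ := by
    intro σ
    have e1 := h1 σ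
    rw [hsec σ] at e1
    rw [hmu]
    linear_combination e1
  -- differentiate `mu * g' = g^3 - g`
  have hthird : ∀ σ, 3 * g σ ^ 2 - 1 = mu * lam := by
    intro σ
    have dL : HasDerivAt (fun τ => mu * deriv g τ) (mu * deriv (deriv g) σ) σ :=
      ((hg1 σ).hasDerivAt).const_mul mu
    have dR : HasDerivAt (fun τ => g τ ^ 3 - g τ) (3 * g σ ^ 2 * deriv g σ - deriv g σ) σ := by
      have h3 : HasDerivAt (fun τ => g τ ^ 3 - g τ)
          ((3 : ℕ) * g σ ^ (3 - 1) * deriv g σ - deriv g σ) σ :=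
        ((hgd σ).hasDerivAt.pow 3).sub (hgd σ).hasDerivAt
      exact h3.congr_deriv (by norm_num)
    have hfun : (fun τ => mu * deriv g τ) = fun τ => g τ ^ 3 - g τ := funext hfirst
    rw [hfun] at dL
    have := dL.unique dR
    rw [hsec σ] at this
    have hp := hpos σ
    have hcancel : (mu * lam - (3 * g σ ^ 2 - 1)) * deriv g σ = 0 := by linear_combination this
    rcases mul_eq_zero.mp hcancel with h | h
    · linarith
    · exact absurd h (ne_of_gt hp)
  -- differentiate again: `g ≡ 0`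
  have hzero : ∀ σ, g σ = 0 := by
    intro σ
    have d1 : HasDerivAt (fun τ => 3 * g τ ^ 2 - 1) (3 * (2 * g σ * deriv g σ)) σ := by
      have h3 : HasDerivAt (fun τ => 3 * g τ ^ 2 - 1)
          (3 * ((2 : ℕ) * g σ ^ (2 - 1) * deriv g σ)) σ :=
        (((hgd σ).hasDerivAt.pow 2).const_mul 3).sub_const 1
      exact h3.congr_deriv (by norm_num)
    have hfun : (fun τ => 3 * g τ ^ 2 - 1) = fun _ => mu * lam := funext hthird
    rw [hfun] at d1
    have := d1.unique (hasDerivAt_const σ (mu * lam))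
    have hp := hpos σ
    have : g σ * deriv g σ = 0 := by linarith
    rcases mul_eq_zero.mp this with h | h
    · exact h
    · exact absurd h (ne_of_gt hp)
  have hg0 : g = fun _ => 0 := funext hzero
  have := hpos 0
  rw [hg0] at this
  simp at this

/-- Eikonal rigidity: an entire `C^2` function whose gradient has constant length is affine. -/
theorem eikonal_affine (h : E → ℝ) (hh : ContDiff ℝ 2 h) (c : ℝ)
    (hc : ∀ x, ‖fderiv ℝ h x‖ ^ 2 = c) :
    ∃ v : E, ∀ x, h x = h 0 + inner ℝ v x := by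
  have hhd : Differentiable ℝ h := hh.differentiable (by norm_num)
  have hs1 : Differentiable ℝ (fderiv ℝ h) := by
    have : ContDiff ℝ 1 (fderiv ℝ h) := by
      have h2 : ContDiff ℝ (1 + 1) h := by rw [one_add_one_eq_two]; exact hh
      exact (contDiff_succ_iff_fderiv.mp h2).2.2
    exact this.differentiable (by norm_num)
  have hs1c : Continuous (fderiv ℝ (fderiv ℝ h)) := by
    have h2 : ContDiff ℝ (1 + 1) h := by rw [one_add_one_eq_two]; exact hh
    have : ContDiff ℝ 1 (fderiv ℝ h) := (contDiff_succ_iff_fderiv.mp h2).2.2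
    exact this.continuous_fderiv (by norm_num)
  -- the gradient
  let L : StrongDual ℝ E →L[ℝ] E := LinearMap.mkContinuous
    { toFun := fun φ => (InnerProductSpace.toDual ℝ E).symm φ
      map_add' := fun a b => map_add _ a b
      map_smul' := fun r a => by simp } 1 (fun φ => by simp)
  have hL : ∀ (φ : StrongDual ℝ E) (w : E), inner ℝ (L φ) w = φ w := fun φ w =>
    InnerProductSpace.toDual_symm_apply
  have hLn : ∀ φ : StrongDual ℝ E, ‖L φ‖ = ‖φ‖ := fun φ =>
    (InnerProductSpace.toDual ℝ E).symm.norm_map φ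
  set G : E → E := fun y => L (fderiv ℝ h y) with hG
  have hGd : ∀ y, HasFDerivAt G (L.comp (fderiv ℝ (fderiv ℝ h) y)) y := fun y =>
    L.hasFDerivAt.comp y (hs1 y).hasFDerivAt
  have hGn : ∀ y, ‖G y‖ ^ 2 = c := fun y => by rw [hG]; simp only; rw [hLn, hc]
  -- second derivative kills the gradient
  have hb : ∀ y z, fderiv ℝ (fderiv ℝ h) y z (G y) = 0 := by
    intro y z
    have h1 : HasFDerivAt (fun t => inner ℝ (G t) (G t)) _ y := (hGd y).inner ℝ (hGd y)
    have h2 : (fun t => inner ℝ (G t) (G t)) = fun _ => c := by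
      funext t
      rw [real_inner_self_eq_norm_sq, hGn]
    rw [h2] at h1
    have h3 := h1.unique (hasFDerivAt_const c y)
    have h4 := congrArg (fun T : E →L[ℝ] ℝ => T z) h3
    simp only [ContinuousLinearMap.comp_apply, ContinuousLinearMap.prod_apply,
      fderivInnerCLM_apply, zero_apply] at h4
    rw [real_inner_comm, hL] at h4
    linarith
  have hsymm : ∀ y z w, fderiv ℝ (fderiv ℝ h) y z w = fderiv ℝ (fderiv ℝ h) y w z := by
    intro y z w
    have := (hh.contDiffAt (x := y)).isSymmSndFDerivAt (by simp)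
    exact this z w
  have hb' : ∀ y, fderiv ℝ (fderiv ℝ h) y (G y) = 0 := by
    intro y
    ext z
    rw [hsymm, hb]
    simp
  -- the gradient is constant along its own lines
  have hline : ∀ x0 : E, ∀ ε : ℝ, ∀ T : ℝ, 0 ≤ T → G (x0 + T • (ε • G x0)) = G x0 := by
    intro x0 ε T hT
    set v := G x0 with hv
    set d := ε • v with hd
    let W : ℝ → E := fun t => G (x0 + t • d) - v
    let W' : ℝ → E := fun t => L (fderiv ℝ (fderiv ℝ h) (x0 + t • d) d)
    have hγ : ∀ t : ℝ, HasDerivAt (fun t : ℝ => x0 + t • d) d t := by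
      intro t
      have := ((hasDerivAt_id t).smul_const d).const_add x0
      simpa using this
    have hW : ∀ t, HasDerivAt W (W' t) t := by
      intro t
      have := (hGd (x0 + t • d)).comp_hasDerivAt t (hγ t)
      exact this.sub_const v
    have hγc : Continuous (fun t : ℝ => x0 + t • d) :=
      continuous_const.add (continuous_id.smul continuous_const)
    have hcont : ContinuousOn (fun t : ℝ => fderiv ℝ (fderiv ℝ h) (x0 + t • d)) (Icc 0 T) :=
      (hs1c.comp hγc).continuousOn
    obtain ⟨K, hK⟩ := isCompact_Icc.exists_bound_of_continuousOn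
      (f := fun t : ℝ => fderiv ℝ (fderiv ℝ h) (x0 + t • d)) (by exact hcont)
    have hbound : ∀ t ∈ Ico (0 : ℝ) T, ‖W' t‖ ≤ (|ε| * K) * ‖W t‖ := by
      intro t ht
      have hK' := hK t ⟨ht.1, ht.2.le⟩
      have hdW : d = ε • G (x0 + t • d) - ε • W t := by
        simp only [W, hd, smul_sub]; abel
      have e1 : fderiv ℝ (fderiv ℝ h) (x0 + t • d) d
          = -(ε • fderiv ℝ (fderiv ℝ h) (x0 + t • d) (W t)) := by
        have e0 := congrArg (fderiv ℝ (fderiv ℝ h) (x0 + t • d)) hdW
        rw [e0, map_sub, map_smul, map_smul, hb']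
        simp
      simp only [W']
      rw [hLn, e1, norm_neg, norm_smul, Real.norm_eq_abs, mul_assoc]
      refine mul_le_mul_of_nonneg_left ?_ (abs_nonneg ε)
      exact (ContinuousLinearMap.le_opNorm _ _).trans
        (mul_le_mul_of_nonneg_right hK' (norm_nonneg _))
    have hz := eq_zero_of_abs_deriv_le_mul_abs_self_of_eq_zero_right
      (f := W) (f' := W') (K := |ε| * K) (a := 0) (b := T)
      (fun t _ => (hW t).continuousAt.continuousWithinAt)
      (fun t _ => (hW t).hasDerivWithinAt)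
      (by simp only [W, zero_smul, add_zero]; exact sub_self (G x0)) hbound T ⟨hT, le_rfl⟩
    simp only [W] at hz
    exact sub_eq_zero.mp hz
  have hline' : ∀ x0 : E, ∀ t : ℝ, G (x0 + t • G x0) = G x0 := by
    intro x0 t
    rcases le_total 0 t with ht | ht
    · have := hline x0 1 t ht
      simpa using this
    · have := hline x0 (-1) (-t) (by linarith)
      simpa using this
  -- h is affine along gradient lines
  have hval : ∀ x0 : E, ∀ t : ℝ, h (x0 + t • G x0) = h x0 + t * c := by
    intro x0 t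
    set v := G x0 with hv
    have hd : ∀ s : ℝ, HasDerivAt (fun s : ℝ => h (x0 + s • v) - s * c) 0 s := by
      intro s
      have hγ : HasDerivAt (fun s : ℝ => x0 + s • v) v s := by
        have := ((hasDerivAt_id s).smul_const v).const_add x0
        simpa using this
      have h1 := (hhd (x0 + s • v)).hasFDerivAt.comp_hasDerivAt s hγ
      have h2 : fderiv ℝ h (x0 + s • v) v = c := by
        rw [← hL, ← hGn x0]
        change inner ℝ (G (x0 + s • v)) v = _
        rw [hline' x0 s, real_inner_self_eq_norm_sq]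
      rw [h2] at h1
      have h3 : HasDerivAt (fun s : ℝ => h (x0 + s • v) - s * c) (c - 1 * c) s :=
        h1.sub ((hasDerivAt_id s).mul_const c)
      exact h3.congr_deriv (by ring)
    have hconst := is_const_of_deriv_eq_zero (f := fun s : ℝ => h (x0 + s • v) - s * c)
      (fun s => (hd s).differentiableAt) (fun s => (hd s).deriv) t 0
    simp at hconst
    linarith
  -- Lipschitz bound
  have hlip : ∀ x y : E, |h y - h x| ≤ ‖G 0‖ * ‖y - x‖ := by
    intro x y
    have := Convex.norm_image_sub_le_of_norm_fderiv_le (f := h) (C := ‖G 0‖) (s := univ)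
      (fun z _ => hhd z) (fun z _ => by
        have h1 : ‖fderiv ℝ h z‖ ^ 2 = ‖G 0‖ ^ 2 := by rw [hc, hGn]
        exact ((sq_eq_sq₀ (norm_nonneg _) (norm_nonneg _)).mp h1).le) convex_univ (mem_univ x) (mem_univ y)
    simpa using this
  refine ⟨G 0, fun x => ?_⟩
  set v := G 0 with hv
  have hcv : c = ‖v‖ ^ 2 := (hGn 0).symm
  -- two-sided estimate for every τ > 0
  have hest : ∀ τ : ℝ, 0 < τ → |h x - h 0 - inner ℝ v x| ≤ ‖x‖ ^ 2 / (2 * τ) := by
    intro τ hτ
    have hup := hlip (0 + (-τ) • v) x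
    have hlo := hlip (0 + τ • v) x
    rw [hval 0 (-τ)] at hup
    rw [hval 0 τ] at hlo
    simp only [zero_add] at hup hlo
    have n1 : ‖x - (-τ) • v‖ ^ 2 = ‖x‖ ^ 2 + 2 * τ * inner ℝ v x + τ ^ 2 * ‖v‖ ^ 2 := by
      rw [neg_smul, sub_neg_eq_add, norm_add_sq_real, norm_smul, real_inner_smul_right,
        real_inner_comm, Real.norm_eq_abs, mul_pow, sq_abs]
      ring
    have n2 : ‖x - τ • v‖ ^ 2 = ‖x‖ ^ 2 - 2 * τ * inner ℝ v x + τ ^ 2 * ‖v‖ ^ 2 := by
      rw [norm_sub_sq_real, norm_smul, real_inner_smul_right,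
        real_inner_comm, Real.norm_eq_abs, mul_pow, sq_abs]
      ring
    have a1 : ‖v‖ * ‖x - (-τ) • v‖ ≤ (‖x - (-τ) • v‖ ^ 2 + τ ^ 2 * ‖v‖ ^ 2) / (2 * τ) := by
      rw [le_div_iff₀ (by positivity)]
      nlinarith [sq_nonneg (‖x - (-τ) • v‖ - τ * ‖v‖)]
    have a2 : ‖v‖ * ‖x - τ • v‖ ≤ (‖x - τ • v‖ ^ 2 + τ ^ 2 * ‖v‖ ^ 2) / (2 * τ) := by
      rw [le_div_iff₀ (by positivity)]
      nlinarith [sq_nonneg (‖x - τ • v‖ - τ * ‖v‖)]
    rw [n1] at a1
    rw [n2] at a2
    have e1 : (‖x‖ ^ 2 + 2 * τ * inner ℝ v x + τ ^ 2 * ‖v‖ ^ 2 + τ ^ 2 * ‖v‖ ^ 2) / (2 * τ)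
        = ‖x‖ ^ 2 / (2 * τ) + inner ℝ v x + τ * ‖v‖ ^ 2 := by
      field_simp; ring
    have e2 : (‖x‖ ^ 2 - 2 * τ * inner ℝ v x + τ ^ 2 * ‖v‖ ^ 2 + τ ^ 2 * ‖v‖ ^ 2) / (2 * τ)
        = ‖x‖ ^ 2 / (2 * τ) - inner ℝ v x + τ * ‖v‖ ^ 2 := by
      field_simp; ring
    rw [e1] at a1
    rw [e2] at a2
    rw [abs_le] at hup hlo ⊢
    constructor
    · nlinarith [hlo.1, hcv]
    · nlinarith [hup.2, hcv]
  -- let τ → ∞
  have hzero : |h x - h 0 - inner ℝ v x| ≤ 0 := by
    by_contra hpos
    rw [not_le] at hpos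
    have := hest (‖x‖ ^ 2 / |h x - h 0 - inner ℝ v x| + 1) (by positivity)
    rw [le_div_iff₀ (by positivity)] at this
    have hx2 : 0 ≤ ‖x‖ ^ 2 := by positivity
    have e : |h x - h 0 - inner ℝ v x| * (‖x‖ ^ 2 / |h x - h 0 - inner ℝ v x|) = ‖x‖ ^ 2 := by
      field_simp
    nlinarith
  have := abs_nonpos_iff.mp hzero
  linarith

end Vale.Agent.Helper20.P134
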